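import Vale.Agent.Lib.P254.Orl.BMMult

/-! M5. Additive Brunn-Minkowski for bounded solid sets.
ROUTE: nonempty solid sets contain `0`.  `s = 0` or `t = 0`: `B ⊆ C` resp. `A ⊆ C`.
Let `a = vol A ^ (1/m)`, `b = vol B ^ (1/m)`.  If `a = 0`: `t • B ⊆ C` (take `x = 0`), and
`vol (t • B) = t^m vol B` (`Measure.addHaar_smul`, `finrank = m`).  Same if `b = 0`.
Otherwise `A' = a⁻¹ • A`, `B' = b⁻¹ • B` have volume `1`, are solid, measurable, bounded;
with `c = s a + t b`, `s' = s a / c`, `t' = t b / c`, `C' = c⁻¹ • C` one has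
`s' • A' + t' • B' ⊆ C'`; `bm_mult` gives `1 ≤ volume C' = c^(-m) volume C`. -/

namespace Vale.Agent.Lib.P254.Orl

open MeasureTheory Set

open scoped Pointwise

private lemma vol_smul' {m : ℕ} (r : ℝ) (hr : 0 ≤ r) (D : Set (Fin m → ℝ)) :
    vol (r • D) = r ^ m * vol D := by
  unfold vol
  rw [Measure.addHaar_smul, ENNReal.toReal_mul, ENNReal.toReal_ofReal (abs_nonneg _)]
  simp [abs_of_nonneg (pow_nonneg hr m)]

private lemma zero_mem_of_solid {m : ℕ} {A : Set (Fin m → ℝ)} (sA : Solid A) (nA : A.Nonempty) :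
    (0 : Fin m → ℝ) ∈ A := by
  obtain ⟨x, hx⟩ := nA
  exact sA x hx 0 (fun j => by simp)

private lemma solid_smul {m : ℕ} {A : Set (Fin m → ℝ)} (sA : Solid A) {r : ℝ} (hr : 0 < r) :
    Solid (r • A) := by
  rintro _ ⟨x, hx, rfl⟩ y hy
  refine ⟨r⁻¹ • y, sA x hx _ ?_, ?_⟩
  · intro j
    have := hy j
    simp only [Pi.smul_apply, smul_eq_mul, abs_mul, abs_of_pos hr] at this
    simp only [Pi.smul_apply, smul_eq_mul, abs_mul, abs_of_pos (inv_pos.2 hr)]
    rw [inv_mul_le_iff₀ hr]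
    exact this
  · simp [smul_smul, mul_inv_cancel₀ hr.ne']

private lemma sub_case {m : ℕ} (hm : 0 < m) {D C : Set (Fin m → ℝ)}
    (bC : Bornology.IsBounded C) {r : ℝ} (hr : 0 ≤ r) (hsub : r • D ⊆ C) :
    r * vol D ^ (1 / (m : ℝ)) ≤ vol C ^ (1 / (m : ℝ)) := by
  have h1 : vol (r • D) ≤ vol C :=
    ENNReal.toReal_mono bC.measure_lt_top.ne (measure_mono hsub)
  rw [vol_smul' r hr] at h1
  have hD : 0 ≤ vol D := ENNReal.toReal_nonneg
  have h2 : (r ^ m * vol D) ^ (1 / (m : ℝ)) ≤ vol C ^ (1 / (m : ℝ)) :=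
    Real.rpow_le_rpow (mul_nonneg (pow_nonneg hr m) hD) h1 (by positivity)
  rw [Real.mul_rpow (pow_nonneg hr m) hD, one_div, Real.pow_rpow_inv_natCast hr hm.ne'] at h2
  rw [one_div]
  exact h2

theorem bm_add (m : ℕ) (hm : 0 < m) (A B C : Set (Fin m → ℝ))
    (hA : MeasurableSet A) (hB : MeasurableSet B) (hC : MeasurableSet C)
    (sA : Solid A) (sB : Solid B) (nA : A.Nonempty) (nB : B.Nonempty)
    (bA : Bornology.IsBounded A) (bB : Bornology.IsBounded B) (bC : Bornology.IsBounded C)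
    (s t : ℝ) (hs : 0 ≤ s) (ht : 0 ≤ t) (hst : s + t = 1)
    (h : ∀ x ∈ A, ∀ y ∈ B, s • x + t • y ∈ C) :
    s * vol A ^ (1 / (m : ℝ)) + t * vol B ^ (1 / (m : ℝ)) ≤ vol C ^ (1 / (m : ℝ)) := by
  have h0A := zero_mem_of_solid sA nA
  have h0B := zero_mem_of_solid sB nB
  have hvA : 0 ≤ vol A := ENNReal.toReal_nonneg
  have hvB : 0 ≤ vol B := ENNReal.toReal_nonneg
  set a := vol A ^ (1 / (m : ℝ)) with ha
  set b := vol B ^ (1 / (m : ℝ)) with hb
  have ha0 : 0 ≤ a := Real.rpow_nonneg hvA _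
  have hb0 : 0 ≤ b := Real.rpow_nonneg hvB _
  have subB : t • B ⊆ C := by
    rintro _ ⟨y, hy, rfl⟩
    have := h 0 h0A y hy
    simpa using this
  have subA : s • A ⊆ C := by
    rintro _ ⟨x, hx, rfl⟩
    have := h x hx 0 h0B
    simpa using this
  by_cases hsa : s * a = 0
  · rw [hsa, zero_add]
    exact sub_case hm bC ht subB
  by_cases htb : t * b = 0
  · rw [htb, add_zero]
    exact sub_case hm bC hs subA
  have hs' : 0 < s := lt_of_le_of_ne hs (fun e => hsa (by rw [← e, zero_mul]))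
  have ha' : 0 < a := lt_of_le_of_ne ha0 (fun e => hsa (by rw [← e, mul_zero]))
  have ht' : 0 < t := lt_of_le_of_ne ht (fun e => htb (by rw [← e, zero_mul]))
  have hb' : 0 < b := lt_of_le_of_ne hb0 (fun e => htb (by rw [← e, mul_zero]))
  set c := s * a + t * b with hc
  have hc' : 0 < c := by positivity
  have ham : a ^ m = vol A := by
    rw [ha, one_div, Real.rpow_inv_natCast_pow hvA hm.ne']
  have hbm : b ^ m = vol B := by
    rw [hb, one_div, Real.rpow_inv_natCast_pow hvB hm.ne']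
  have hvA' : vol (a⁻¹ • A) = 1 := by
    rw [vol_smul' _ (inv_pos.2 ha').le, ← ham, inv_pow, inv_mul_cancel₀ (pow_pos ha' m).ne']
  have hvB' : vol (b⁻¹ • B) = 1 := by
    rw [vol_smul' _ (inv_pos.2 hb').le, ← hbm, inv_pow, inv_mul_cancel₀ (pow_pos hb' m).ne']
  have bA' : Bornology.IsBounded (a⁻¹ • A) := bA.smul₀ _
  have bB' : Bornology.IsBounded (b⁻¹ • B) := bB.smul₀ _
  have bC' : Bornology.IsBounded (c⁻¹ • C) := bC.smul₀ _
  have eA : volume (a⁻¹ • A) = 1 := by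
    rw [← ENNReal.ofReal_toReal bA'.measure_lt_top.ne]
    show ENNReal.ofReal (vol (a⁻¹ • A)) = 1
    rw [hvA']; simp
  have eB : volume (b⁻¹ • B) = 1 := by
    rw [← ENNReal.ofReal_toReal bB'.measure_lt_top.ne]
    show ENNReal.ofReal (vol (b⁻¹ • B)) = 1
    rw [hvB']; simp
  have key := bm_mult m (a⁻¹ • A) (b⁻¹ • B) (c⁻¹ • C)
    (hA.const_smul_of_ne_zero (inv_ne_zero ha'.ne')) (hB.const_smul_of_ne_zero (inv_ne_zero hb'.ne'))
    (hC.const_smul_of_ne_zero (inv_ne_zero hc'.ne'))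
    (solid_smul sA (inv_pos.2 ha')) (solid_smul sB (inv_pos.2 hb')) bA' bB' bC'
    (s * a / c) (t * b / c) (by positivity) (by positivity) (by rw [← add_div, ← hc, div_self hc'.ne']) ?_
  · rw [eA, eB, ENNReal.one_rpow, ENNReal.one_rpow, one_mul] at key
    have k2 : (1 : ℝ) ≤ vol (c⁻¹ • C) := by
      have := ENNReal.toReal_mono bC'.measure_lt_top.ne key
      rw [ENNReal.toReal_one] at this
      exact this
    rw [vol_smul' _ (inv_pos.2 hc').le, inv_pow, ← div_eq_inv_mul, le_div_iff₀ (pow_pos hc' m),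
      one_mul] at k2
    have k3 : (c ^ m) ^ (1 / (m : ℝ)) ≤ vol C ^ (1 / (m : ℝ)) :=
      Real.rpow_le_rpow (pow_nonneg hc'.le m) k2 (by positivity)
    rwa [one_div, Real.pow_rpow_inv_natCast hc'.le hm.ne', ← one_div] at k3
  · rintro _ ⟨x, hx, rfl⟩ _ ⟨y, hy, rfl⟩
    refine ⟨s • x + t • y, h x hx y hy, ?_⟩
    simp only [smul_add, smul_smul]
    congr 2
    · field_simp
    · field_simp

end Vale.Agent.Lib.P254.Orl
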