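import Vale.Agent.Lib.P254.Orl.Defs

/-! M3. Fubini for the coordinate `i` of `ℝ^(m+1)`.
ROUTE: `e := MeasurableEquiv.piFinSuccAbove (fun _ => ℝ) i : (Fin (m+1) → ℝ) ≃ᵐ ℝ × (Fin m → ℝ)`,
`e.symm (t, y) = i.insertNth t y`, `e x = (x i, i.removeNth x)`, measure preserving by
`MeasureTheory.volume_preserving_piFinSuccAbove (fun _ => ℝ) i`.  So
`sec i t A = Prod.mk t ⁻¹' (e.symm ⁻¹' A)`; use `measurable_measure_prodMk_left`,
`Measure.prod_apply`, `integral_prod` (see `slice_stdS` in `Few/StdMoments.lean` for a similar proof). -/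

namespace Vale.Agent.Lib.P254.Orl

open MeasureTheory Set

variable {m : ℕ}

private lemma sec_eq (i : Fin (m + 1)) (t : ℝ) (A : Set (Fin (m + 1) → ℝ)) :
    sec i t A = Prod.mk t ⁻¹'
      ((MeasurableEquiv.piFinSuccAbove (fun _ : Fin (m + 1) => ℝ) i).symm ⁻¹' A) := by
  ext y
  rfl

private lemma meas_pre (i : Fin (m + 1)) {A : Set (Fin (m + 1) → ℝ)} (hA : MeasurableSet A) :
    MeasurableSet ((MeasurableEquiv.piFinSuccAbove (fun _ : Fin (m + 1) => ℝ) i).symm ⁻¹' A) :=
  (MeasurableEquiv.piFinSuccAbove (fun _ : Fin (m + 1) => ℝ) i).symm.measurable hA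

theorem measurableSet_sec (i : Fin (m + 1)) (t : ℝ) {A : Set (Fin (m + 1) → ℝ)}
    (hA : MeasurableSet A) : MeasurableSet (sec i t A) := by
  rw [sec_eq]
  exact measurable_prodMk_left (meas_pre i hA)

theorem measurable_volume_sec (i : Fin (m + 1)) {A : Set (Fin (m + 1) → ℝ)}
    (hA : MeasurableSet A) : Measurable fun t => volume (sec i t A) := by
  simp only [sec_eq]
  exact measurable_measure_prodMk_left (meas_pre i hA)

theorem volume_eq_lintegral_sec (i : Fin (m + 1)) {A : Set (Fin (m + 1) → ℝ)}
    (hA : MeasurableSet A) : volume A = ∫⁻ t, volume (sec i t A) := by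
  have hmp : MeasurePreserving (MeasurableEquiv.piFinSuccAbove (fun _ : Fin (m + 1) => ℝ) i).symm
      (volume.prod volume) volume :=
    (volume_preserving_piFinSuccAbove (fun _ : Fin (m + 1) => ℝ) i).symm _
  rw [← hmp.measure_preimage hA.nullMeasurableSet, Measure.prod_apply (meas_pre i hA)]
  simp only [sec_eq]

theorem isBounded_sec (i : Fin (m + 1)) (t : ℝ) {A : Set (Fin (m + 1) → ℝ)}
    (hA : Bornology.IsBounded A) : Bornology.IsBounded (sec i t A) := by
  obtain ⟨R, hR⟩ := hA.subset_closedBall 0
  refine (Metric.isBounded_closedBall (x := (0 : Fin m → ℝ)) (r := R)).subset ?_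
  intro y hy
  have h1 := hR hy
  rw [mem_closedBall_zero_iff] at h1 ⊢
  have hR0 : 0 ≤ R := le_trans (norm_nonneg _) h1
  rw [pi_norm_le_iff_of_nonneg hR0] at h1 ⊢
  intro j
  have := h1 (i.succAbove j)
  simpa using this

theorem measurable_secVol (i : Fin (m + 1)) {A : Set (Fin (m + 1) → ℝ)}
    (hA : MeasurableSet A) : Measurable (secVol i A) :=
  (measurable_volume_sec i hA).ennreal_toReal

theorem secVol_nonneg (i : Fin (m + 1)) (A : Set (Fin (m + 1) → ℝ)) (t : ℝ) :
    0 ≤ secVol i A t := ENNReal.toReal_nonneg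

private lemma sec_empty (i : Fin (m + 1)) {A : Set (Fin (m + 1) → ℝ)} {R : ℝ}
    (hR : A ⊆ Metric.closedBall 0 R) {t : ℝ} (ht : R < |t|) : sec i t A = ∅ := by
  ext y
  simp only [mem_empty_iff_false, iff_false]
  intro hy
  have h1 := hR hy
  rw [mem_closedBall_zero_iff] at h1
  have h2 := norm_le_pi_norm (Fin.insertNth i t y : Fin (m + 1) → ℝ) i
  simp only [Fin.insertNth_apply_same, Real.norm_eq_abs] at h2
  linarith

private lemma sec_sub (i : Fin (m + 1)) {A : Set (Fin (m + 1) → ℝ)} {R : ℝ}
    (hR : A ⊆ Metric.closedBall 0 R) (t : ℝ) : sec i t A ⊆ Metric.closedBall 0 R := by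
  intro y hy
  have h1 := hR hy
  rw [mem_closedBall_zero_iff] at h1 ⊢
  have hR0 : 0 ≤ R := le_trans (norm_nonneg _) h1
  rw [pi_norm_le_iff_of_nonneg hR0] at h1 ⊢
  intro j
  have := h1 (i.succAbove j)
  simpa using this

/-- the section function of a bounded set is bounded with bounded support, so every continuous
weight is integrable against it -/
theorem integrable_mul_secVol (i : Fin (m + 1)) {A : Set (Fin (m + 1) → ℝ)}
    (hA : MeasurableSet A) (bA : Bornology.IsBounded A) (f : ℝ → ℝ) (hf : Continuous f) :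
    Integrable fun t => f t * secVol i A t := by
  obtain ⟨R, hR⟩ := bA.subset_closedBall 0
  set V : ℝ := vol (Metric.closedBall (0 : Fin m → ℝ) R) with hV
  have hfin : volume (Metric.closedBall (0 : Fin m → ℝ) R) ≠ ⊤ :=
    (isCompact_closedBall _ _).measure_lt_top.ne
  have hle : ∀ t, secVol i A t ≤ V := by
    intro t
    exact ENNReal.toReal_mono hfin (measure_mono (sec_sub i hR t))
  have hzero : ∀ t, t ∉ Icc (-R) R → secVol i A t = 0 := by
    intro t ht
    have : R < |t| := by
      by_contra hcon
      rw [not_lt, abs_le] at hcon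
      exact ht hcon
    simp [secVol, vol, sec_empty i hR this]
  have heq : (fun t => f t * secVol i A t)
      = (Icc (-R) R).indicator (fun t => f t * secVol i A t) := by
    funext t
    by_cases ht : t ∈ Icc (-R) R
    · rw [indicator_of_mem ht]
    · rw [indicator_of_notMem ht, hzero t ht, mul_zero]
  rw [heq, integrable_indicator_iff measurableSet_Icc]
  have hfi : IntegrableOn f (Icc (-R) R) := hf.continuousOn.integrableOn_compact isCompact_Icc
  refine Integrable.mul_bdd (c := V) hfi ?_ ?_
  · exact (measurable_secVol i hA).aestronglyMeasurable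
  · refine Filter.Eventually.of_forall fun t => ?_
    rw [Real.norm_eq_abs, abs_of_nonneg (secVol_nonneg i A t)]
    exact hle t

theorem setIntegral_coord (i : Fin (m + 1)) {A : Set (Fin (m + 1) → ℝ)}
    (hA : MeasurableSet A) (bA : Bornology.IsBounded A) (f : ℝ → ℝ) (hf : Continuous f) :
    ∫ x in A, f (x i) = ∫ t, f t * secVol i A t := by
  set e := MeasurableEquiv.piFinSuccAbove (fun _ : Fin (m + 1) => ℝ) i with he
  have hmp : MeasurePreserving e volume (volume.prod volume) :=
    volume_preserving_piFinSuccAbove (fun _ : Fin (m + 1) => ℝ) i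
  set S : Set (ℝ × (Fin m → ℝ)) := e.symm ⁻¹' A with hS
  have hSm : MeasurableSet S := meas_pre i hA
  have hpre : e ⁻¹' S = A := by
    ext x
    simp [hS]
  set F : ℝ × (Fin m → ℝ) → ℝ := fun p => f p.1 with hF
  have h1 : ∫ x in A, f (x i) = ∫ p in S, F p ∂(volume.prod volume) := by
    rw [← hmp.setIntegral_preimage_emb e.measurableEmbedding F S, hpre]
    rfl
  -- integrability of F on S
  have hAfin : volume A ≠ ⊤ := bA.measure_lt_top.ne
  have hint0 : IntegrableOn (fun x : Fin (m + 1) → ℝ => f (x i)) A := by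
    have hc : Continuous fun x : Fin (m + 1) → ℝ => f (x i) := hf.comp (continuous_apply i)
    have hcl : IsCompact (closure A) := bA.isCompact_closure
    exact (hc.continuousOn.integrableOn_compact hcl).mono_set subset_closure
  have hint : IntegrableOn F S (volume.prod volume) := by
    have := (hmp.integrableOn_comp_preimage e.measurableEmbedding (f := F) (s := S))
    rw [hpre] at this
    exact this.1 hint0
  rw [h1, ← integral_indicator hSm, integral_prod _ (hint.integrable_indicator hSm)]
  refine integral_congr_ae (Filter.Eventually.of_forall fun t => ?_)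
  have e1 : (fun y : Fin m → ℝ => S.indicator F (t, y))
      = (sec i t A).indicator (fun _ => f t) := by
    funext y
    by_cases hy : y ∈ sec i t A
    · rw [indicator_of_mem hy, indicator_of_mem]
      exact hy
    · rw [indicator_of_notMem hy, indicator_of_notMem]
      exact hy
  simp only [e1]
  rw [integral_indicator (measurableSet_sec i t hA), setIntegral_const]
  simp [secVol, vol, Measure.real, mul_comm]

theorem vol_eq_integral_secVol (i : Fin (m + 1)) {A : Set (Fin (m + 1) → ℝ)}
    (hA : MeasurableSet A) (bA : Bornology.IsBounded A) :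
    vol A = ∫ t, secVol i A t := by
  have h := setIntegral_coord i hA bA (fun _ => 1) continuous_const
  simp only [one_mul] at h
  rw [← h]
  simp [vol, Measure.real]

end Vale.Agent.Lib.P254.Orl
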