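import Vale.Agent.Lib.P254.Orl.PLOne
import Vale.Agent.Lib.P254.Orl.Fubini

/-! M4. Multiplicative Brunn-Minkowski for bounded solid sets, by induction on the dimension.
ROUTE: `m = 0`: `Fin 0 → ℝ` is a point of volume `1`; if `A` or `B` is empty the left side is `0`
(`ENNReal.zero_rpow_of_pos`), otherwise `C = univ`.
Step `m → m+1`: `f x = (volume (sec 0 x A)).toReal`, same `g` (for `B`), `h` (for `C`).
Sections are measurable (`measurableSet_sec`), bounded (`isBounded_sec`, hence of finite volume:
`Bornology.IsBounded.measure_lt_top`), solid; `sec 0 x A ⊆ sec 0 y A` for `|y| ≤ |x|`;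
`s • insertNth 0 x a + t • insertNth 0 y b = insertNth 0 (s x + t y) (s • a + t • b)`, so the induction
hypothesis gives `f x ^ s * g y ^ t ≤ h (s x + t y)` (`ENNReal.toReal_rpow`, `ENNReal.toReal_mul`,
`ENNReal.toReal_mono`).  Apply `pl_one`, `ENNReal.ofReal_toReal`, `volume_eq_lintegral_sec 0`. -/

namespace Vale.Agent.Lib.P254.Orl

open MeasureTheory Set

private lemma solid_sec {m : ℕ} (i : Fin (m + 1)) (x : ℝ) {A : Set (Fin (m + 1) → ℝ)}
    (sA : Solid A) : Solid (sec i x A) := by
  intro a ha b hb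
  refine sA _ ha _ ?_
  intro j
  refine Fin.succAboveCases i ?_ ?_ j
  · simp
  · intro k
    simpa using hb k

private lemma sec_mono_abs {m : ℕ} (i : Fin (m + 1)) {x y : ℝ} (hxy : |y| ≤ |x|)
    {A : Set (Fin (m + 1) → ℝ)} (sA : Solid A) : sec i x A ⊆ sec i y A := by
  intro a ha
  refine sA _ ha _ ?_
  intro j
  refine Fin.succAboveCases i ?_ ?_ j
  · simpa using hxy
  · intro k
    simp

private lemma insertNth_comb {m : ℕ} (i : Fin (m + 1)) (s t x y : ℝ) (a b : Fin m → ℝ) :
    (Fin.insertNth i (s * x + t * y) (s • a + t • b) : Fin (m + 1) → ℝ)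
      = s • (Fin.insertNth i x a : Fin (m + 1) → ℝ) + t • (Fin.insertNth i y b : Fin (m + 1) → ℝ) := by
  funext j
  refine Fin.succAboveCases i ?_ ?_ j
  · simp
  · intro k
    simp

theorem bm_mult (m : ℕ) (A B C : Set (Fin m → ℝ))
    (hA : MeasurableSet A) (hB : MeasurableSet B) (hC : MeasurableSet C)
    (sA : Solid A) (sB : Solid B)
    (bA : Bornology.IsBounded A) (bB : Bornology.IsBounded B) (bC : Bornology.IsBounded C)
    (s t : ℝ) (hs : 0 < s) (ht : 0 < t) (hst : s + t = 1)
    (h : ∀ x ∈ A, ∀ y ∈ B, s • x + t • y ∈ C) :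
    volume A ^ s * volume B ^ t ≤ volume C := by
  induction m with
  | zero =>
    rcases A.eq_empty_or_nonempty with rfl | ⟨x, hx⟩
    · simp [ENNReal.zero_rpow_of_pos hs]
    rcases B.eq_empty_or_nonempty with rfl | ⟨y, hy⟩
    · simp [ENNReal.zero_rpow_of_pos ht]
    have hCu : C = univ := by
      apply eq_univ_of_forall
      intro z
      have := h x hx y hy
      rwa [Subsingleton.elim z (s • x + t • y)]
    have h1 : volume (univ : Set (Fin 0 → ℝ)) = 1 := by
      simp [volume_pi]
    have hA1 : volume A ≤ 1 := h1 ▸ measure_mono (subset_univ A)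
    have hB1 : volume B ≤ 1 := h1 ▸ measure_mono (subset_univ B)
    rw [hCu, h1]
    calc volume A ^ s * volume B ^ t ≤ 1 * 1 :=
          mul_le_mul' (ENNReal.rpow_le_one hA1 hs.le) (ENNReal.rpow_le_one hB1 ht.le)
      _ = 1 := one_mul 1
  | succ m ih =>
    have fin : ∀ {D : Set (Fin (m + 1) → ℝ)}, Bornology.IsBounded D → ∀ x : ℝ,
        volume (sec 0 x D) ≠ ⊤ := fun bD x => (isBounded_sec 0 x bD).measure_lt_top.ne
    have key := pl_one (fun x => (volume (sec 0 x A)).toReal) (fun x => (volume (sec 0 x B)).toReal)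
      (fun x => (volume (sec 0 x C)).toReal)
      (measurable_volume_sec 0 hA).ennreal_toReal (measurable_volume_sec 0 hB).ennreal_toReal
      (measurable_volume_sec 0 hC).ennreal_toReal
      (fun _ => ENNReal.toReal_nonneg) (fun _ => ENNReal.toReal_nonneg)
      (fun _ => ENNReal.toReal_nonneg)
      (fun x y hxy => ENNReal.toReal_mono (fin bA y) (measure_mono (sec_mono_abs 0 hxy sA)))
      (fun x y hxy => ENNReal.toReal_mono (fin bB y) (measure_mono (sec_mono_abs 0 hxy sB)))
      s t hs ht hst ?_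
    · simp only [ENNReal.ofReal_toReal (fin bA _), ENNReal.ofReal_toReal (fin bB _),
        ENNReal.ofReal_toReal (fin bC _)] at key
      rw [volume_eq_lintegral_sec 0 hA, volume_eq_lintegral_sec 0 hB, volume_eq_lintegral_sec 0 hC]
      exact key
    · intro x y
      have hi := ih (sec 0 x A) (sec 0 y B) (sec 0 (s * x + t * y) C)
        (measurableSet_sec 0 x hA) (measurableSet_sec 0 y hB) (measurableSet_sec 0 _ hC)
        (solid_sec 0 x sA) (solid_sec 0 y sB)
        (isBounded_sec 0 x bA) (isBounded_sec 0 y bB) (isBounded_sec 0 _ bC) ?_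
      · have := ENNReal.toReal_mono (fin bC _) hi
        rw [ENNReal.toReal_mul, ← ENNReal.toReal_rpow, ← ENNReal.toReal_rpow] at this
        exact this
      · intro a ha b hb
        show (Fin.insertNth 0 (s * x + t * y) (s • a + t • b) : Fin (m + 1) → ℝ) ∈ C
        rw [insertNth_comb]
        exact h _ ha _ hb

end Vale.Agent.Lib.P254.Orl
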