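import Vale.Agent.Lib.P254.Orl.OBBasic

/-! M12b. Bathtub principle for `w = 1 - ∑ v_i(x_i)`, which is `≥ 0` exactly on `OB v`.
ROUTE: `w` is continuous, hence integrable on compact sets.  With `K = OB v`:
`∫_K w = ∫_{K ∩ B} w + ∫_{K \ B} w ≥ ∫_{K ∩ B} w` and `∫_B w = ∫_{B ∩ K} w + ∫_{B \ K} w ≤ ∫_{B ∩ K} w`
(`setIntegral_nonneg`, `setIntegral_nonpos`, `integral_inter_add_diff`).
Positivity: `w ≥ 0` on `K`, `w` continuous, `w 0 = 1`, `0 ∈ interior K`: e.g. the open set
`U = {x | ∑ v i (x i) < 1/2}` is a nonempty open subset of `K` where `w ≥ 1/2`, so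
`∫_K w ≥ ∫_U w ≥ vol U / 2 > 0` (`IsOpen.measure_pos`). -/

namespace Vale.Agent.Lib.P254.Orl

open MeasureTheory Set

variable {n : ℕ} {v : Fin n → ℝ → ℝ}

private theorem continuous_sumv (hv : ∀ i, IsYoung (v i)) :
    Continuous fun x : Fin n → ℝ => ∑ i, v i (x i) :=
  continuous_finsetSum _ fun i _ => (hv i).continuous.comp (continuous_apply i)

private theorem continuous_w (hv : ∀ i, IsYoung (v i)) :
    Continuous fun x : Fin n → ℝ => 1 - ∑ i, v i (x i) :=
  continuous_const.sub (continuous_sumv hv)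

theorem bathtub (hv : ∀ i, IsYoung (v i)) (B : Set (Fin n → ℝ)) (kB : IsCompact B) :
    ∫ x in B, (1 - ∑ i, v i (x i)) ≤ ∫ x in OB v, (1 - ∑ i, v i (x i)) := by
  have hw := continuous_w hv
  have kK : IsCompact (OB v) := isCompact_OB hv
  have mB : MeasurableSet B := kB.measurableSet
  have mK : MeasurableSet (OB v) := kK.measurableSet
  have iB : IntegrableOn (fun x : Fin n → ℝ => 1 - ∑ i, v i (x i)) B volume :=
    hw.continuousOn.integrableOn_compact kB
  have iK : IntegrableOn (fun x : Fin n → ℝ => 1 - ∑ i, v i (x i)) (OB v) volume :=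
    hw.continuousOn.integrableOn_compact kK
  have h1 := integral_inter_add_sdiff (μ := volume) mK iB
  have h2 := integral_inter_add_sdiff (μ := volume) mB iK
  have h3 : ∫ x in B \ OB v, (1 - ∑ i, v i (x i)) ≤ 0 := by
    apply setIntegral_nonpos (mB.diff mK)
    intro x hx
    have : ¬ (∑ i, v i (x i) ≤ 1) := hx.2
    linarith
  have h4 : 0 ≤ ∫ x in OB v \ B, (1 - ∑ i, v i (x i)) := by
    apply setIntegral_nonneg (mK.diff mB)
    intro x hx
    have : ∑ i, v i (x i) ≤ 1 := hx.1
    linarith
  rw [inter_comm] at h2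
  linarith

theorem integral_w_pos (hv : ∀ i, IsYoung (v i)) :
    0 < ∫ x in OB v, (1 - ∑ i, v i (x i)) := by
  have hw := continuous_w hv
  have kK : IsCompact (OB v) := isCompact_OB hv
  have mK : MeasurableSet (OB v) := kK.measurableSet
  have iK : IntegrableOn (fun x : Fin n → ℝ => 1 - ∑ i, v i (x i)) (OB v) volume :=
    hw.continuousOn.integrableOn_compact kK
  rw [setIntegral_pos_iff_support_of_nonneg_ae _ iK]
  · have hU : IsOpen {x : Fin n → ℝ | ∑ i, v i (x i) < 1 / 2} :=
      isOpen_lt (continuous_sumv hv) continuous_const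
    have hU0 : ({x : Fin n → ℝ | ∑ i, v i (x i) < 1 / 2}).Nonempty := by
      refine ⟨0, ?_⟩
      simp [(hv _).zero]
    refine lt_of_lt_of_le (hU.measure_pos volume hU0) (measure_mono ?_)
    intro x hx
    have hx' : ∑ i, v i (x i) < 1 / 2 := hx
    refine ⟨?_, ?_⟩
    · rw [Function.mem_support]
      intro h0
      linarith
    · show ∑ i, v i (x i) ≤ 1
      linarith
  · rw [Filter.EventuallyLE, ae_restrict_iff' mK]
    refine Filter.Eventually.of_forall fun x hx => ?_
    have : ∑ i, v i (x i) ≤ 1 := hx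
    simp only [Pi.zero_apply]
    linarith

/-- linearity, for any compact set -/
theorem integral_w_eq (hv : ∀ i, IsYoung (v i)) (B : Set (Fin n → ℝ)) (kB : IsCompact B) :
    ∫ x in B, (1 - ∑ i, v i (x i)) = vol B - ∑ i, ∫ x in B, v i (x i) := by
  have hi : ∀ i, IntegrableOn (fun x : Fin n → ℝ => v i (x i)) B volume := fun i =>
    ((hv i).continuous.comp (continuous_apply i)).continuousOn.integrableOn_compact kB
  have h1 : IntegrableOn (fun _ : Fin n → ℝ => (1 : ℝ)) B volume :=
    continuous_const.continuousOn.integrableOn_compact kB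
  have hs : IntegrableOn (fun x : Fin n → ℝ => ∑ i, v i (x i)) B volume :=
    (continuous_sumv hv).continuousOn.integrableOn_compact kB
  rw [integral_sub h1 hs, integral_finsetSum _ (fun i _ => hi i), setIntegral_const]
  simp [vol, Measure.real]

end Vale.Agent.Lib.P254.Orl
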