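import Vale.Agent.Lib.P254.Orl.Defs

/-! M12a. Integrals over a box.
ROUTE: `Box b = Set.pi univ (fun i => Icc (-(b i)) (b i))` (`abs_le`); `Real.volume_pi_Icc`‑type lemmas /
`volume_pi_pi`, `Real.volume_Icc`.  For the integral write the indicator of the box times `f (x i)` as
`∏ j, φ j (x j)` with `φ i = indicator (Icc (-b i) (b i)) f`, `φ j = indicator (Icc ..) 1` and use
`MeasureTheory.integral_fintype_prod_volume_eq_prod` (name may differ: `integral_fintype_prod_eq_prod`);
`∫_{-b}^{b} f = 2 ∫_0^b f` for even `f` (`intervalIntegral.integral_comp_neg`, `integral_add_adjacent_intervals`). -/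

namespace Vale.Agent.Lib.P254.Orl

open MeasureTheory Set

variable {n : ℕ}

private lemma Box_eq_pi (b : Fin n → ℝ) : Box b = Set.pi univ (fun i => Icc (-(b i)) (b i)) := by
  ext x
  simp only [Box, mem_ofPred_eq, mem_pi, mem_univ, true_implies, mem_Icc, abs_le]

theorem isCompact_Box (b : Fin n → ℝ) : IsCompact (Box b) := by
  rw [Box_eq_pi]
  exact isCompact_univ_pi (fun i => isCompact_Icc)

theorem vol_Box (b : Fin n → ℝ) (hb : ∀ i, 0 ≤ b i) : vol (Box b) = ∏ i, (2 * b i) := by
  unfold vol
  rw [Box_eq_pi, volume_pi_pi]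
  simp only [Real.volume_Icc]
  rw [ENNReal.toReal_prod]
  apply Finset.prod_congr rfl
  intro i _
  rw [ENNReal.toReal_ofReal (by linarith [hb i])]
  ring

private lemma even_integral (f : ℝ → ℝ) (hf : Continuous f) (hev : ∀ t, f (-t) = f t) (c : ℝ)
    (hc : 0 ≤ c) : ∫ t in Icc (-c) c, f t = 2 * ∫ t in (0 : ℝ)..c, f t := by
  rw [integral_Icc_eq_integral_Ioc, ← intervalIntegral.integral_of_le (by linarith)]
  rw [← intervalIntegral.integral_add_adjacent_intervals (b := 0)
    (hf.intervalIntegrable _ _) (hf.intervalIntegrable _ _)]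
  have h1 : ∫ t in (-c)..0, f t = ∫ t in (0 : ℝ)..c, f t := by
    have := intervalIntegral.integral_comp_neg (a := 0) (b := c) f
    simp only [neg_zero] at this
    rw [← this]
    simp only [hev]
  rw [h1]
  ring

theorem setIntegral_Box_coord (b : Fin n → ℝ) (hb : ∀ i, 0 < b i) (i : Fin n) (f : ℝ → ℝ)
    (hf : Continuous f) (hev : ∀ t, f (-t) = f t) :
    b i * ∫ x in Box b, f (x i) = vol (Box b) * ∫ t in (0 : ℝ)..(b i), f t := by
  classical
  set φ : Fin n → ℝ → ℝ := fun j =>
    (Icc (-(b j)) (b j)).indicator (if j = i then f else fun _ => 1) with hφ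
  have hmeas : MeasurableSet (Box b) := (isCompact_Box b).isClosed.measurableSet
  have h1 : ∫ x in Box b, f (x i) = ∫ x : Fin n → ℝ, ∏ j, φ j (x j) := by
    rw [← integral_indicator hmeas]
    congr 1
    ext x
    by_cases hx : x ∈ Box b
    · rw [indicator_of_mem hx]
      have hx' : ∀ j, x j ∈ Icc (-(b j)) (b j) := by
        rw [Box_eq_pi] at hx
        exact fun j => hx j (mem_univ j)
      have h2 : ∀ j, φ j (x j) = (if j = i then f else fun _ => 1) (x j) := fun j => by
        simp only [hφ]
        rw [indicator_of_mem (hx' j)]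
      simp only [h2]
      rw [Finset.prod_eq_single i]
      · simp
      · intro j _ hj
        simp [hj]
      · intro h; exact absurd (Finset.mem_univ i) h
    · rw [indicator_of_notMem hx]
      have : ∃ j, x j ∉ Icc (-(b j)) (b j) := by
        by_contra hcon
        push Not at hcon
        apply hx
        rw [Box_eq_pi]
        exact fun j _ => hcon j
      obtain ⟨j, hj⟩ := this
      symm
      apply Finset.prod_eq_zero (Finset.mem_univ j)
      simp only [hφ]
      rw [indicator_of_notMem hj]
  rw [h1, integral_fintype_prod_volume_eq_prod, vol_Box b (fun j => (hb j).le)]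
  have hA : ∀ j, j ≠ i → ∫ t, φ j t = 2 * b j := by
    intro j hj
    simp only [hφ, if_neg hj]
    rw [integral_indicator measurableSet_Icc]
    simp only [integral_const, smul_eq_mul, mul_one]
    rw [measureReal_restrict_apply MeasurableSet.univ, univ_inter, measureReal_def, Real.volume_Icc,
      ENNReal.toReal_ofReal (by linarith [hb j])]
    ring
  have hAi : ∫ t, φ i t = 2 * ∫ t in (0 : ℝ)..(b i), f t := by
    simp only [hφ, if_true]
    rw [integral_indicator measurableSet_Icc]
    exact even_integral f hf hev (b i) (hb i).le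
  rw [← Finset.mul_prod_erase Finset.univ _ (Finset.mem_univ i),
    ← Finset.mul_prod_erase Finset.univ (fun j => 2 * b j) (Finset.mem_univ i), hAi]
  have hE : ∏ j ∈ Finset.univ.erase i, ∫ t, φ j t = ∏ j ∈ Finset.univ.erase i, 2 * b j := by
    apply Finset.prod_congr rfl
    intro j hj
    exact hA j (Finset.ne_of_mem_erase hj)
  rw [hE]
  ring

end Vale.Agent.Lib.P254.Orl
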