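import Vale.Agent.Lib.P254.Orl.Defs

/-! M7. One-dimensional Berwald inequality (comparison with the cone density).  PURE 1-D ANALYSIS.
Write `M0 = ∫_{t>0} σ`, `M1 = ∫_{t>0} t σ`, `M2 = ∫_{t>0} t^2 σ`.
ROUTE: if `M0 = 0` then `σ = 0` a.e. on `Ioi 0` and `M2 = 0`.  Otherwise `M1 > 0`; put
`h = (m+2) M1 / M0`, `κ = (m+1) M0 / h`, `c t = κ (max (1 - t/h) 0)^m`.  By `beta0, beta1, beta2`
(in `Few/StdMoments.lean`; substitute `t = h u`) `∫_{t>0} c = M0`, `∫_{t>0} t c = M1`,
`∫_{t>0} t^2 c = 2 (m+2) M1^2 / ((m+3) M0)`.  Let `ψ = σ^(1/m)`, `ℓ t = κ^(1/m) (1 - t/h)` (affine) and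
`I = {t ∈ D | 0 < t ∧ ℓ t < ψ t}`, a convex subset of `ℝ` (`ψ - ℓ` is concave on `D`).
For `t > 0`: `t ∈ I → c t ≤ σ t` and `t ∉ I → σ t ≤ c t`.
If `I` is empty take `q t = t^2`; otherwise `α = sInf I`, `β = sSup I` (`I ⊆ D ∩ Ioi 0` is bounded),
`q t = (t - α)(t - β)`: `q ≤ 0` on `I`, `q ≥ 0` off `I` (points of `[α,β] \ I` are only `α, β`).
Hence `(σ - c) q ≤ 0` on `Ioi 0`, and `∫ (σ - c) q = M2 - ∫ t^2 c` because the moments of order
`0, 1` agree. -/

namespace Vale.Agent.Lib.P254.Orl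

open MeasureTheory Set

/-- the truncated cone profile -/
private noncomputable def W (h : ℝ) (j : ℕ) (t : ℝ) : ℝ := (max (1 - t / h) 0) ^ j

private lemma W_nonneg (h : ℝ) (j : ℕ) (t : ℝ) : 0 ≤ W h j t :=
  pow_nonneg (le_max_right _ _) _

private lemma W_cont (h : ℝ) (j : ℕ) : Continuous (W h j) := by
  unfold W
  fun_prop

private lemma W_int (h : ℝ) (hh : 0 < h) (j : ℕ) (hj : 0 < j) :
    IntegrableOn (W h j) (Ioi 0) ∧ ∫ t in Ioi (0 : ℝ), W h j t = h / ((j : ℝ) + 1) := by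
  have hz : ∀ t ∈ Ioi h, W h j t = 0 := by
    intro t ht
    have h1 : 1 - t / h ≤ 0 := by
      have : 1 < t / h := by rw [lt_div_iff₀ hh]; simpa using ht
      linarith
    unfold W
    rw [max_eq_right h1, zero_pow hj.ne']
  have i1 : IntegrableOn (W h j) (Ioc 0 h) := (W_cont h j).integrableOn_Ioc
  have i2 : IntegrableOn (W h j) (Ioi h) :=
    (integrableOn_zero).congr_fun (fun t ht => (hz t ht).symm) measurableSet_Ioi
  have hU : Ioc 0 h ∪ Ioi h = Ioi 0 := Ioc_union_Ioi_eq_Ioi hh.le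
  refine ⟨by rw [← hU]; exact i1.union i2, ?_⟩
  rw [← hU, setIntegral_union (Ioc_disjoint_Ioi le_rfl) measurableSet_Ioi i1 i2]
  rw [setIntegral_congr_fun measurableSet_Ioi hz]
  simp only [integral_zero, add_zero]
  rw [← intervalIntegral.integral_of_le hh.le]
  have h2 : ∫ t in (0 : ℝ)..h, W h j t = ∫ t in (0 : ℝ)..h, (1 - h⁻¹ * t) ^ j := by
    apply intervalIntegral.integral_congr
    intro t ht
    rw [uIcc_of_le hh.le] at ht
    have h3 : 0 ≤ 1 - t / h := by
      have : t / h ≤ 1 := by rw [div_le_one hh]; exact ht.2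
      linarith
    simp only [W]
    rw [max_eq_left h3, div_eq_inv_mul]
  rw [h2, intervalIntegral.integral_comp_sub_mul (fun x => x ^ j) (inv_ne_zero hh.ne') 1]
  rw [integral_pow]
  simp only [inv_inv, mul_zero, sub_zero, smul_eq_mul]
  rw [inv_mul_cancel₀ hh.ne']
  simp
  ring

private lemma W_mul (h : ℝ) (hh : 0 < h) (j : ℕ) (hj : 0 < j) (t : ℝ) :
    t * W h j t = h * (W h j t - W h (j + 1) t) := by
  unfold W
  rcases le_total (1 - t / h) 0 with h1 | h1
  · rw [max_eq_right h1, zero_pow hj.ne', zero_pow (Nat.succ_ne_zero j)]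
    ring
  · rw [max_eq_left h1]
    have ht : t = h * (1 - (1 - t / h)) := by field_simp; ring
    generalize 1 - t / h = w at ht
    rw [ht]
    ring

/-- abstract two-crossing comparison -/
private lemma two_cross (σ c : ℝ → ℝ) (α β : ℝ)
    (hq : ∀ t, 0 < t → (σ t - c t) * ((t - α) * (t - β)) ≤ 0)
    (i0 : IntegrableOn σ (Ioi 0)) (i1 : IntegrableOn (fun t => t * σ t) (Ioi 0))
    (i2 : IntegrableOn (fun t => t ^ 2 * σ t) (Ioi 0))
    (j0 : IntegrableOn c (Ioi 0)) (j1 : IntegrableOn (fun t => t * c t) (Ioi 0))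
    (j2 : IntegrableOn (fun t => t ^ 2 * c t) (Ioi 0))
    (e0 : ∫ t in Ioi (0 : ℝ), σ t = ∫ t in Ioi (0 : ℝ), c t)
    (e1 : ∫ t in Ioi (0 : ℝ), t * σ t = ∫ t in Ioi (0 : ℝ), t * c t) :
    ∫ t in Ioi (0 : ℝ), t ^ 2 * σ t ≤ ∫ t in Ioi (0 : ℝ), t ^ 2 * c t := by
  have hle : ∫ t in Ioi (0 : ℝ), (σ t - c t) * ((t - α) * (t - β)) ≤ 0 :=
    setIntegral_nonpos measurableSet_Ioi (fun t ht => hq t ht)
  have hexp : ∀ t : ℝ, (σ t - c t) * ((t - α) * (t - β)) =
      ((t ^ 2 * σ t - t ^ 2 * c t) - (α + β) * (t * σ t - t * c t)) + (α * β) * (σ t - c t) := by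
    intro t; ring
  simp only [hexp] at hle
  have k0 : IntegrableOn (fun t => σ t - c t) (Ioi 0) := i0.sub j0
  have k1 : IntegrableOn (fun t => t * σ t - t * c t) (Ioi 0) := i1.sub j1
  have k2 : IntegrableOn (fun t => t ^ 2 * σ t - t ^ 2 * c t) (Ioi 0) := i2.sub j2
  have k1' : IntegrableOn (fun t => (α + β) * (t * σ t - t * c t)) (Ioi 0) := k1.const_mul _
  have k0' : IntegrableOn (fun t => (α * β) * (σ t - c t)) (Ioi 0) := k0.const_mul _
  have k21 : IntegrableOn (fun t => (t ^ 2 * σ t - t ^ 2 * c t) - (α + β) * (t * σ t - t * c t))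
      (Ioi 0) := k2.sub k1'
  rw [integral_add k21 k0', integral_sub k2 k1', integral_const_mul, integral_const_mul,
    integral_sub i2 j2, integral_sub i1 j1, integral_sub i0 j0, e0, e1] at hle
  simp only [sub_self, mul_zero, sub_zero, add_zero] at hle
  linarith

theorem cone_compare (m : ℕ) (hm : 0 < m) (σ : ℝ → ℝ) (hσ0 : ∀ t, 0 ≤ σ t)
    (D : Set ℝ) (hDb : BddAbove D) (hconc : ConcaveOn ℝ D (fun t => σ t ^ (1 / (m : ℝ))))
    (hzero : ∀ t, 0 < t → t ∉ D → σ t = 0)
    (i0 : IntegrableOn σ (Ioi 0)) (i1 : IntegrableOn (fun t => t * σ t) (Ioi 0))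
    (i2 : IntegrableOn (fun t => t ^ 2 * σ t) (Ioi 0)) :
    (∫ t in Ioi (0 : ℝ), t ^ 2 * σ t) * (∫ t in Ioi (0 : ℝ), σ t)
      ≤ (2 * ((m : ℝ) + 2) / ((m : ℝ) + 3)) * (∫ t in Ioi (0 : ℝ), t * σ t) ^ 2 := by
  classical
  set M0 := ∫ t in Ioi (0 : ℝ), σ t with hM0
  set M1 := ∫ t in Ioi (0 : ℝ), t * σ t with hM1
  set M2 := ∫ t in Ioi (0 : ℝ), t ^ 2 * σ t with hM2
  have hmR : (0 : ℝ) < m := by exact_mod_cast hm
  have hM0nn : 0 ≤ M0 := setIntegral_nonneg measurableSet_Ioi (fun t _ => hσ0 t)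
  rcases hM0nn.eq_or_lt with hz | hM0pos
  · rw [← hz, mul_zero]
    positivity
  -- M1 > 0
  have hM1nn : 0 ≤ M1 :=
    setIntegral_nonneg measurableSet_Ioi (fun t ht => mul_nonneg (le_of_lt ht) (hσ0 t))
  have hM1pos : 0 < M1 := by
    rcases hM1nn.eq_or_lt with hz | hp
    · exfalso
      have h1 : (fun t => t * σ t) =ᵐ[volume.restrict (Ioi 0)] 0 := by
        rw [← integral_eq_zero_iff_of_nonneg_ae _ i1]
        · exact hz.symm
        · filter_upwards [ae_restrict_mem measurableSet_Ioi] with t ht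
          exact mul_nonneg (le_of_lt ht) (hσ0 t)
      have h2 : σ =ᵐ[volume.restrict (Ioi 0)] 0 := by
        filter_upwards [h1, ae_restrict_mem measurableSet_Ioi] with t ht ht0
        have ht0' : (0 : ℝ) < t := ht0
        simp only [Pi.zero_apply, mul_eq_zero] at ht
        rcases ht with h | h
        · exact absurd h ht0'.ne'
        · exact h
      have h3 : M0 = 0 := by
        rw [hM0, integral_congr_ae h2]
        simp
      linarith
    · exact hp
  set h : ℝ := ((m : ℝ) + 2) * M1 / M0 with hh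
  have hhpos : 0 < h := by positivity
  set κ : ℝ := ((m : ℝ) + 1) * M0 / h with hκ
  have hκpos : 0 < κ := by positivity
  set k0 : ℝ := κ ^ (1 / (m : ℝ)) with hk0
  have hk0pos : 0 < k0 := Real.rpow_pos_of_pos hκpos _
  have hk0m : k0 ^ m = κ := by
    rw [hk0, one_div]
    exact Real.rpow_inv_natCast_pow hκpos.le hm.ne'
  set ψ : ℝ → ℝ := fun t => σ t ^ (1 / (m : ℝ)) with hψ
  have hψnn : ∀ t, 0 ≤ ψ t := fun t => Real.rpow_nonneg (hσ0 t) _
  have hψm : ∀ t, ψ t ^ m = σ t := by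
    intro t
    simp only [hψ, one_div]
    exact Real.rpow_inv_natCast_pow (hσ0 t) hm.ne'
  set c : ℝ → ℝ := fun t => κ * W h m t with hc
  have hcnn : ∀ t, 0 ≤ c t := fun t => mul_nonneg hκpos.le (W_nonneg h m t)
  set I : Set ℝ := {t | t ∈ D ∧ 0 < t ∧ k0 * (1 - t / h) < ψ t} with hI
  have hA : ∀ t, t ∈ I → c t ≤ σ t := by
    intro t ht
    simp only [hc, W]
    rcases le_total (1 - t / h) 0 with h1 | h1
    · rw [max_eq_right h1, zero_pow hm.ne', mul_zero]
      exact hσ0 t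
    · rw [max_eq_left h1, ← hk0m, ← mul_pow, ← hψm t]
      exact pow_le_pow_left₀ (mul_nonneg hk0pos.le h1) ht.2.2.le m
  have hB : ∀ t, 0 < t → t ∉ I → σ t ≤ c t := by
    intro t ht0 ht
    by_cases hD : t ∈ D
    · have h1 : ψ t ≤ k0 * (1 - t / h) := by
        by_contra hcon
        exact ht ⟨hD, ht0, not_le.mp hcon⟩
      have h2 : 0 ≤ k0 * (1 - t / h) := (hψnn t).trans h1
      have h3 : 0 ≤ 1 - t / h := nonneg_of_mul_nonneg_right h2 hk0pos
      simp only [hc, W]
      rw [max_eq_left h3, ← hk0m, ← mul_pow, ← hψm t]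
      exact pow_le_pow_left₀ (hψnn t) h1 m
    · rw [hzero t ht0 hD]
      exact hcnn t
  have hIconv : Convex ℝ I := by
    intro x hx y hy a b ha hb hab
    refine ⟨hconc.1 hx.1 hy.1 ha hb hab, ?_, ?_⟩
    · simp only [smul_eq_mul]
      rcases ha.eq_or_lt with h0 | h0
      · have : b = 1 := by linarith
        rw [← h0, this]; simpa using hy.2.1
      · have := mul_pos h0 hx.2.1
        have := mul_nonneg hb hy.2.1.le
        linarith
    · have h1 := hconc.2 hx.1 hy.1 ha hb hab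
      simp only [smul_eq_mul] at h1 ⊢
      have h2 : k0 * (1 - (a * x + b * y) / h) =
          a * (k0 * (1 - x / h)) + b * (k0 * (1 - y / h)) := by
        field_simp
        linear_combination (-h) * hab
      rw [h2]
      refine lt_of_lt_of_le ?_ h1
      rcases ha.eq_or_lt with h0 | h0
      · have hb1 : b = 1 := by linarith
        rw [← h0, hb1]
        simpa using hy.2.2
      · have h3 := mul_lt_mul_of_pos_left hx.2.2 h0
        have h4 := mul_le_mul_of_nonneg_left hy.2.2.le hb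
        linarith
  have hIoc := hIconv.ordConnected
  -- the quadratic
  obtain ⟨α, β, hq⟩ : ∃ α β : ℝ, ∀ t, 0 < t → (σ t - c t) * ((t - α) * (t - β)) ≤ 0 := by
    by_cases hne : I.Nonempty
    · have hbb : BddBelow I := ⟨0, fun t ht => ht.2.1.le⟩
      have hba : BddAbove I := hDb.mono (fun t ht => ht.1)
      refine ⟨sInf I, sSup I, fun t ht0 => ?_⟩
      by_cases ht : t ∈ I
      · have h1 : 0 ≤ σ t - c t := sub_nonneg.mpr (hA t ht)
        have h2 : 0 ≤ t - sInf I := sub_nonneg.mpr (csInf_le hbb ht)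
        have h3 : t - sSup I ≤ 0 := sub_nonpos.mpr (le_csSup hba ht)
        exact mul_nonpos_of_nonneg_of_nonpos h1 (mul_nonpos_of_nonneg_of_nonpos h2 h3)
      · have h1 : σ t - c t ≤ 0 := sub_nonpos.mpr (hB t ht0 ht)
        have h2 : 0 ≤ (t - sInf I) * (t - sSup I) := by
          by_contra hcon
          have hcon' := not_le.mp hcon
          have hab : sInf I ≤ sSup I := by
            obtain ⟨x, hx⟩ := hne
            exact (csInf_le hbb hx).trans (le_csSup hba hx)
          have h3 : sInf I < t := by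
            by_contra h4
            have h5 : t - sInf I ≤ 0 := by linarith
            have h6 : t - sSup I ≤ 0 := by linarith
            have := mul_nonneg_of_nonpos_of_nonpos h5 h6
            linarith
          have h4 : t < sSup I := by
            by_contra h4
            have h5 : 0 ≤ t - sInf I := by linarith
            have h6 : 0 ≤ t - sSup I := by linarith
            have := mul_nonneg h5 h6
            linarith
          obtain ⟨x, hx, hxt⟩ := exists_lt_of_csInf_lt hne h3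
          obtain ⟨y, hy, hty⟩ := exists_lt_of_lt_csSup hne h4
          exact ht (hIoc.out hx hy ⟨hxt.le, hty.le⟩)
        exact mul_nonpos_of_nonpos_of_nonneg h1 h2
    · refine ⟨0, 0, fun t ht0 => ?_⟩
      have ht : t ∉ I := fun h => hne ⟨t, h⟩
      have h1 : σ t - c t ≤ 0 := sub_nonpos.mpr (hB t ht0 ht)
      have h2 : 0 ≤ (t - 0) * (t - 0) := mul_self_nonneg _
      exact mul_nonpos_of_nonpos_of_nonneg h1 h2
  -- moments of the cone density
  obtain ⟨w0, v0⟩ := W_int h hhpos m hm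
  obtain ⟨w1, v1⟩ := W_int h hhpos (m + 1) (Nat.succ_pos _)
  obtain ⟨w2, v2⟩ := W_int h hhpos (m + 2) (Nat.succ_pos _)
  have c1 : ∀ t, t * c t = κ * h * (W h m t - W h (m + 1) t) := by
    intro t
    simp only [hc]
    have := W_mul h hhpos m hm t
    calc t * (κ * W h m t) = κ * (t * W h m t) := by ring
      _ = κ * h * (W h m t - W h (m + 1) t) := by rw [this]; ring
  have c2 : ∀ t, t ^ 2 * c t = κ * h ^ 2 * (W h m t - 2 * W h (m + 1) t + W h (m + 2) t) := by
    intro t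
    have e1 := W_mul h hhpos m hm t
    have e2 := W_mul h hhpos (m + 1) (Nat.succ_pos _) t
    calc t ^ 2 * c t = t * (t * c t) := by ring
      _ = κ * h * (t * W h m t - t * W h (m + 1) t) := by rw [c1 t]; ring
      _ = κ * h ^ 2 * (W h m t - 2 * W h (m + 1) t + W h (m + 2) t) := by rw [e1, e2]; ring
  have j0 : IntegrableOn c (Ioi 0) := w0.const_mul κ
  have j1 : IntegrableOn (fun t => t * c t) (Ioi 0) := by
    simp only [c1]
    exact (w0.sub w1).const_mul _
  have j2 : IntegrableOn (fun t => t ^ 2 * c t) (Ioi 0) := by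
    simp only [c2]
    exact ((w0.sub (w1.const_mul 2)).add w2).const_mul _
  have C0 : ∫ t in Ioi (0 : ℝ), c t = M0 := by
    simp only [hc]
    rw [integral_const_mul, v0, hκ]
    field_simp
  have C1 : ∫ t in Ioi (0 : ℝ), t * c t = M1 := by
    simp only [c1]
    rw [integral_const_mul, integral_sub w0 w1, v0, v1, hκ]
    push_cast
    have : h = ((m : ℝ) + 2) * M1 / M0 := hh
    rw [this]
    field_simp
    ring
  have C2 : ∫ t in Ioi (0 : ℝ), t ^ 2 * c t =
      2 * ((m : ℝ) + 2) * M1 ^ 2 / (((m : ℝ) + 3) * M0) := by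
    simp only [c2]
    have w1' : IntegrableOn (fun t => 2 * W h (m + 1) t) (Ioi 0) := w1.const_mul 2
    have w01 : IntegrableOn (fun t => W h m t - 2 * W h (m + 1) t) (Ioi 0) := w0.sub w1'
    rw [integral_const_mul, integral_add w01 w2,
      integral_sub w0 w1', integral_const_mul, v0, v1, v2, hκ]
    push_cast
    have : h = ((m : ℝ) + 2) * M1 / M0 := hh
    rw [this]
    field_simp
    ring
  have key := two_cross σ c α β hq i0 i1 i2 j0 j1 j2 C0.symm C1.symm
  rw [C2] at key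
  calc M2 * M0 ≤ (2 * ((m : ℝ) + 2) * M1 ^ 2 / (((m : ℝ) + 3) * M0)) * M0 :=
        mul_le_mul_of_nonneg_right key hM0pos.le
    _ = (2 * ((m : ℝ) + 2) / ((m : ℝ) + 3)) * M1 ^ 2 := by
        field_simp

end Vale.Agent.Lib.P254.Orl
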