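import Vale.Agent.Lib.P254.Orl.Defs

/-! M8. A non-increasing density dominates, in the convex order, the uniform density with the same
mass and mean.  PURE 1-D ANALYSIS.
Write `M0 = ∫_{t>0} σ > 0`, `M1 = ∫_{t>0} t σ`, `b = 2 M1 / M0 > 0`, `d t = σ t - (M0/b) 1_{(0,b]} t`.
Then `∫_{t>0} d = 0`, `∫_{t>0} t d = M1 - M0 b / 2 = 0`.
ROUTE: let `P = {t ∈ Ioc 0 b | M0 / b ≤ σ t}` (an initial segment of `Ioc 0 b`, `σ` antitone) and
`α = sSup (insert 0 P) ∈ [0,b]`: `d ≥ 0` on `(0,α)`, `d ≤ 0` on `(α,b]`, `d ≥ 0` on `(b,∞)`.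
If `α < b`: `L` = the affine function through `(α, u α)`, `(b, u b)`; convexity gives `u ≤ L` on `[α,b]`
and `u ≥ L` on `[0,α] ∪ [b,∞)`; hence `(u - L) d ≥ 0` a.e. on `Ioi 0`, and `∫ L d = 0`.
If `α = b`: `d ≥ 0` a.e. on `Ioi 0` with integral `0`, so `d = 0` a.e. and equality holds.
Finally `∫_{t>0} u d = ∫ u σ - (M0/b) ∫_0^b u`. -/

namespace Vale.Agent.Lib.P254.Orl

open MeasureTheory Set

private lemma three {u : ℝ → ℝ} (hu : ConvexOn ℝ (Ici 0) u) {x y z : ℝ} (hx : 0 ≤ x) (hxy : x ≤ y)
    (hyz : y ≤ z) (hxz : x < z) : (z - x) * u y ≤ (z - y) * u x + (y - x) * u z := by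
  have hzx : 0 < z - x := by linarith
  have h := hu.2 (show x ∈ Ici (0:ℝ) from hx) (show z ∈ Ici (0:ℝ) from by simp only [mem_Ici]; linarith)
    (show 0 ≤ (z - y) / (z - x) from div_nonneg (by linarith) hzx.le)
    (show 0 ≤ (y - x) / (z - x) from div_nonneg (by linarith) hzx.le)
    (by field_simp; ring)
  have e : ((z - y) / (z - x)) • x + ((y - x) / (z - x)) • z = y := by
    simp only [smul_eq_mul]; field_simp; ring
  rw [e] at h
  simp only [smul_eq_mul] at h
  have h2 := mul_le_mul_of_nonneg_left h hzx.le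
  have e2 : (z - x) * ((z - y) / (z - x) * u x + (y - x) / (z - x) * u z)
      = (z - y) * u x + (y - x) * u z := by field_simp
  rw [e2] at h2
  exact h2

theorem convex_order (σ : ℝ → ℝ) (hσ0 : ∀ t, 0 ≤ σ t) (hanti : AntitoneOn σ (Ici 0))
    (u : ℝ → ℝ) (hu : ConvexOn ℝ (Ici 0) u) (huc : ContinuousOn u (Ici 0))
    (i0 : IntegrableOn σ (Ioi 0)) (i1 : IntegrableOn (fun t => t * σ t) (Ioi 0))
    (iu : IntegrableOn (fun t => u t * σ t) (Ioi 0))
    (hpos : 0 < ∫ t in Ioi (0 : ℝ), σ t)
    (b : ℝ) (hb : b * (∫ t in Ioi (0 : ℝ), σ t) = 2 * ∫ t in Ioi (0 : ℝ), t * σ t) :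
    (∫ t in Ioi (0 : ℝ), σ t) * (∫ t in (0 : ℝ)..b, u t) ≤ b * ∫ t in Ioi (0 : ℝ), u t * σ t := by
  set M0 := ∫ t in Ioi (0 : ℝ), σ t with hM0
  set M1 := ∫ t in Ioi (0 : ℝ), t * σ t with hM1
  set U := ∫ t in Ioi (0 : ℝ), u t * σ t with hU
  -- b > 0
  have hM1nn : 0 ≤ M1 := setIntegral_nonneg measurableSet_Ioi
    (fun t ht => mul_nonneg (le_of_lt ht) (hσ0 t))
  have hbpos : 0 < b := by
    by_contra hcon
    have hcon' : b ≤ 0 := not_lt.mp hcon
    have h1 : M1 = 0 := by nlinarith
    have h2 : (fun t => t * σ t) =ᵐ[volume.restrict (Ioi 0)] 0 :=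
      (setIntegral_eq_zero_iff_of_nonneg_ae
        ((ae_restrict_mem measurableSet_Ioi).mono
          (fun t ht => mul_nonneg (le_of_lt ht) (hσ0 t))) i1).mp h1
    have h3 : σ =ᵐ[volume.restrict (Ioi 0)] 0 := by
      filter_upwards [h2, ae_restrict_mem measurableSet_Ioi] with t ht ht0
      have : t * σ t = 0 := ht
      rcases mul_eq_zero.mp this with h | h
      · exact absurd h (ne_of_gt ht0)
      · exact h
    have h4 : M0 = 0 := by
      rw [hM0]; exact integral_eq_zero_of_ae h3
    linarith
  -- general integral identity: for W = p u - C0 - C1 t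
  have key : ∀ p C0 C1 : ℝ,
      IntegrableOn (fun t => (p * u t - C0 - C1 * t) * (b * σ t)
        - M0 * (Ioo 0 b).indicator (fun t => p * u t - C0 - C1 * t) t) (Ioi 0) ∧
      ∫ t in Ioi (0:ℝ), ((p * u t - C0 - C1 * t) * (b * σ t)
        - M0 * (Ioo 0 b).indicator (fun t => p * u t - C0 - C1 * t) t)
        = p * (b * U - M0 * ∫ t in (0 : ℝ)..b, u t) := by
    intro p C0 C1
    have hcW : ContinuousOn (fun t => p * u t - C0 - C1 * t) (Icc 0 b) := by
      have : ContinuousOn u (Icc 0 b) := huc.mono (fun t ht => ht.1)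
      fun_prop
    have hiW : IntegrableOn (fun t => p * u t - C0 - C1 * t) (Ioo 0 b) :=
      (hcW.integrableOn_Icc).mono_set Ioo_subset_Icc_self
    have hA : IntegrableOn (fun t => (p * u t - C0 - C1 * t) * (b * σ t)) (Ioi 0) := by
      have : (fun t => (p * u t - C0 - C1 * t) * (b * σ t))
          = fun t => (p * b) * (u t * σ t) - (C0 * b) * σ t - (C1 * b) * (t * σ t) := by
        funext t; ring
      rw [this]
      exact ((iu.const_mul _).sub (i0.const_mul _)).sub (i1.const_mul _)
    have hB : IntegrableOn (fun t => M0 * (Ioo 0 b).indicator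
        (fun t => p * u t - C0 - C1 * t) t) (Ioi 0) := by
      apply Integrable.const_mul
      exact (hiW.integrable_indicator measurableSet_Ioo).integrableOn
    refine ⟨hA.sub hB, ?_⟩
    rw [integral_sub hA hB]
    have e1 : ∫ t in Ioi (0:ℝ), (p * u t - C0 - C1 * t) * (b * σ t)
        = (p * b) * U - (C0 * b) * M0 - (C1 * b) * M1 := by
      have : (fun t => (p * u t - C0 - C1 * t) * (b * σ t))
          = fun t => (p * b) * (u t * σ t) - (C0 * b) * σ t - (C1 * b) * (t * σ t) := by
        funext t; ring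
      have hI1 : Integrable (fun t => (p * b) * (u t * σ t)) (volume.restrict (Ioi 0)) :=
        iu.const_mul _
      have hI2 : Integrable (fun t => (C0 * b) * σ t) (volume.restrict (Ioi 0)) := i0.const_mul _
      have hI3 : Integrable (fun t => (C1 * b) * (t * σ t)) (volume.restrict (Ioi 0)) :=
        i1.const_mul _
      have hI12 : Integrable (fun t => (p * b) * (u t * σ t) - (C0 * b) * σ t)
          (volume.restrict (Ioi 0)) := hI1.sub hI2
      rw [this, integral_sub hI12 hI3, integral_sub hI1 hI2, integral_const_mul,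
        integral_const_mul, integral_const_mul]
    have e2 : ∫ t in Ioi (0:ℝ), M0 * (Ioo 0 b).indicator (fun t => p * u t - C0 - C1 * t) t
        = M0 * (p * (∫ t in (0 : ℝ)..b, u t) - C0 * b - C1 * (b ^ 2 / 2)) := by
      rw [integral_const_mul, setIntegral_indicator measurableSet_Ioo]
      have hs : Ioi (0:ℝ) ∩ Ioo 0 b = Ioo 0 b := by
        ext t; simp only [mem_inter_iff, mem_Ioi, mem_Ioo]; tauto
      rw [hs, ← integral_Ioc_eq_integral_Ioo, ← intervalIntegral.integral_of_le hbpos.le]
      have hiu : IntervalIntegrable u volume 0 b :=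
        (huc.mono (fun t ht => by
          rw [uIcc_of_le hbpos.le] at ht; exact ht.1)).intervalIntegrable
      rw [intervalIntegral.integral_sub, intervalIntegral.integral_sub,
        intervalIntegral.integral_const_mul, intervalIntegral.integral_const_mul, integral_id,
        intervalIntegral.integral_const]
      · simp only [smul_eq_mul]; ring
      · exact hiu.const_mul _
      · exact intervalIntegrable_const
      · exact (hiu.const_mul _).sub intervalIntegrable_const
      · exact (continuous_id.intervalIntegrable _ _).const_mul _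
    rw [e1, e2]
    have : b * M0 = 2 * M1 := hb
    linear_combination (C1 * b / 2) * this
  -- the crossing point
  set P : Set ℝ := insert 0 {t | 0 < t ∧ t < b ∧ M0 ≤ b * σ t} with hP
  have hPne : P.Nonempty := ⟨0, mem_insert _ _⟩
  have hPbdd : BddAbove P := by
    refine ⟨b, ?_⟩
    rintro t (rfl | ht)
    · exact hbpos.le
    · exact ht.2.1.le
  set α := sSup P with hα
  have hα0 : 0 ≤ α := le_csSup hPbdd (mem_insert _ _)
  have hαb : α ≤ b := by
    refine csSup_le hPne ?_
    rintro t (rfl | ht)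
    · exact hbpos.le
    · exact ht.2.1.le
  have hlow : ∀ t, 0 < t → t < α → M0 ≤ b * σ t := by
    intro t ht0 htα
    obtain ⟨s, hs, hts⟩ := exists_lt_of_lt_csSup hPne htα
    rcases hs with rfl | hs
    · exact absurd hts (not_lt.mpr ht0.le)
    · have : σ s ≤ σ t := hanti (show t ∈ Ici (0:ℝ) from ht0.le)
        (show s ∈ Ici (0:ℝ) from hs.1.le) hts.le
      calc M0 ≤ b * σ s := hs.2.2
        _ ≤ b * σ t := mul_le_mul_of_nonneg_left this hbpos.le
  have hhigh : ∀ t, α < t → t < b → b * σ t ≤ M0 := by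
    intro t htα htb
    by_contra hcon
    have hcon' : M0 < b * σ t := not_le.mp hcon
    have : t ∈ P := mem_insert_of_mem _ ⟨lt_of_le_of_lt hα0 htα, htb, hcon'.le⟩
    exact absurd (le_csSup hPbdd this) (not_le.mpr htα)
  rcases hαb.lt_or_eq with hlt | heq
  · -- α < b
    obtain ⟨hint, hval⟩ := key (b - α) (b * u α - α * u b) (u b - u α)
    have hnn : 0 ≤ ∫ t in Ioi (0:ℝ), (((b - α) * u t - (b * u α - α * u b) - (u b - u α) * t)
        * (b * σ t) - M0 * (Ioo 0 b).indicator
          (fun t => (b - α) * u t - (b * u α - α * u b) - (u b - u α) * t) t) := by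
      refine setIntegral_nonneg measurableSet_Ioi (fun t ht => ?_)
      have ht0 : (0:ℝ) < t := ht
      by_cases htb : t < b
      · rw [indicator_of_mem (show t ∈ Ioo 0 b from ⟨ht0, htb⟩)]
        rcases lt_trichotomy t α with h | h | h
        · have h3 := three hu ht0.le h.le hlt.le (lt_trans h hlt)
          have h4 := hlow t ht0 h
          have : 0 ≤ ((b - α) * u t - (b * u α - α * u b) - (u b - u α) * t) * (b * σ t - M0) :=
            mul_nonneg (by linarith) (by linarith)
          linarith
        · have : (b - α) * u t - (b * u α - α * u b) - (u b - u α) * t = 0 := by rw [h]; ring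
          rw [this]; simp
        · have h3 := three hu hα0 h.le htb.le hlt
          have h4 := hhigh t h htb
          have : 0 ≤ (-((b - α) * u t - (b * u α - α * u b) - (u b - u α) * t)) * (M0 - b * σ t) :=
            mul_nonneg (by linarith) (by linarith)
          linarith
      · rw [indicator_of_notMem (show t ∉ Ioo 0 b from fun h => htb h.2)]
        have htb' : b ≤ t := not_lt.mp htb
        have h3 := three hu hα0 hlt.le htb' (lt_of_lt_of_le hlt htb')
        have : 0 ≤ ((b - α) * u t - (b * u α - α * u b) - (u b - u α) * t) * (b * σ t) :=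
          mul_nonneg (by linarith) (mul_nonneg hbpos.le (hσ0 t))
        linarith
    rw [hval] at hnn
    have hba : 0 < b - α := by linarith
    have := nonneg_of_mul_nonneg_right hnn hba
    linarith
  · -- α = b
    obtain ⟨hint, hval⟩ := key 0 (-1) 0
    obtain ⟨hint2, hval2⟩ := key 1 0 0
    have hD : ∀ t, 0 ≤ (0 * u t - (-1) - 0 * t) * (b * σ t)
        - M0 * (Ioo 0 b).indicator (fun t => 0 * u t - (-1) - 0 * t) t := by
      intro t
      by_cases ht : t ∈ Ioo 0 b
      · rw [indicator_of_mem ht]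
        have := hlow t ht.1 (by rw [heq]; exact ht.2)
        linarith
      · rw [indicator_of_notMem ht]
        have := mul_nonneg hbpos.le (hσ0 t)
        linarith
    have hz : (fun t => (0 * u t - (-1) - 0 * t) * (b * σ t)
        - M0 * (Ioo 0 b).indicator (fun t => 0 * u t - (-1) - 0 * t) t)
          =ᵐ[volume.restrict (Ioi 0)] 0 :=
      (integral_eq_zero_iff_of_nonneg hD hint).mp (by rw [hval]; ring)
    have hz2 : (fun t => (1 * u t - 0 - 0 * t) * (b * σ t)
        - M0 * (Ioo 0 b).indicator (fun t => 1 * u t - 0 - 0 * t) t)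
          =ᵐ[volume.restrict (Ioi 0)] 0 := by
      filter_upwards [hz] with t ht
      have ht' : (0 * u t - (-1) - 0 * t) * (b * σ t)
        - M0 * (Ioo 0 b).indicator (fun t => 0 * u t - (-1) - 0 * t) t = 0 := ht
      show (1 * u t - 0 - 0 * t) * (b * σ t)
        - M0 * (Ioo 0 b).indicator (fun t => 1 * u t - 0 - 0 * t) t = 0
      by_cases hm : t ∈ Ioo 0 b
      · rw [indicator_of_mem hm] at ht' ⊢
        have : b * σ t - M0 = 0 := by linarith
        have e : (1 * u t - 0 - 0 * t) * (b * σ t) - M0 * (1 * u t - 0 - 0 * t)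
            = u t * (b * σ t - M0) := by ring
        rw [e, this]; ring
      · rw [indicator_of_notMem hm] at ht' ⊢
        have : b * σ t = 0 := by linarith
        rw [this]; ring
    have := integral_eq_zero_of_ae hz2
    rw [hval2] at this
    linarith

end Vale.Agent.Lib.P254.Orl
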