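import Vale.Agent.Lib.P254.Few.Main

/-! Generalized Orlicz balls and solid (unconditional) sets: definitions. -/

namespace Vale.Agent.Lib.P254.Orl

open MeasureTheory Set

/-- solid subsets of `ℝ^m`: with `x` they contain every `y` with `|y_j| ≤ |x_j|` for all `j`
(for convex sets this is the same as invariance under all coordinate sign changes) -/
def Solid {m : ℕ} (A : Set (Fin m → ℝ)) : Prop :=
  ∀ x ∈ A, ∀ y : Fin m → ℝ, (∀ j, |y j| ≤ |x j|) → y ∈ A

/-- section of `A ⊆ ℝ^(m+1)` at height `t` of the coordinate `i` -/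
def sec {m : ℕ} (i : Fin (m + 1)) (t : ℝ) (A : Set (Fin (m + 1) → ℝ)) : Set (Fin m → ℝ) :=
  {y | (Fin.insertNth i t y : Fin (m + 1) → ℝ) ∈ A}

/-- volume of the section -/
noncomputable def secVol {m : ℕ} (i : Fin (m + 1)) (A : Set (Fin (m + 1) → ℝ)) (t : ℝ) : ℝ :=
  vol (sec i t A)

/-- Young function: convex, even, vanishing at `0`, not identically `≤ 1` -/
structure IsYoung (u : ℝ → ℝ) : Prop where
  conv : ConvexOn ℝ univ u
  even : ∀ t, u (-t) = u t
  zero : u 0 = 0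
  big : ∃ c, 1 < u c

/-- generalized Orlicz ball `{x : ∑ v_i(x_i) ≤ 1}` -/
def OB {n : ℕ} (v : Fin n → ℝ → ℝ) : Set (Fin n → ℝ) := {x | ∑ i, v i (x i) ≤ 1}

/-- the box `∏ [-b_i, b_i]` -/
def Box {n : ℕ} (b : Fin n → ℝ) : Set (Fin n → ℝ) := {x | ∀ i, |x i| ≤ b i}

end Vale.Agent.Lib.P254.Orl
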