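import Vale.Agent.Lib.P254.Orl.SecConcave

/-! M11a. Integrals of even functions of one coordinate over a solid set, as integrals over `t > 0`.
ROUTE: `setIntegral_coord`, `vol_eq_integral_secVol`, `integrable_mul_secVol` (Fubini.lean),
`secVol_neg` (SecConcave.lean), and `integral_comp_abs : ∫ x, f |x| = 2 * ∫ x in Ioi 0, f x`
(write `F t = f t * secVol i K t = F |t|`). -/

namespace Vale.Agent.Lib.P254.Orl

open MeasureTheory Set

variable {m : ℕ}

theorem integrableOn_half (i : Fin (m + 1)) {K : Set (Fin (m + 1) → ℝ)}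
    (mK : MeasurableSet K) (bK : Bornology.IsBounded K) (f : ℝ → ℝ) (hf : Continuous f) :
    IntegrableOn (fun t => f t * secVol i K t) (Ioi 0) :=
  (integrable_mul_secVol i mK bK f hf).integrableOn

theorem setIntegral_coord_half (i : Fin (m + 1)) {K : Set (Fin (m + 1) → ℝ)} (sK : Solid K)
    (mK : MeasurableSet K) (bK : Bornology.IsBounded K) (f : ℝ → ℝ) (hf : Continuous f)
    (hev : ∀ t, f (-t) = f t) :
    ∫ x in K, f (x i) = 2 * ∫ t in Ioi (0 : ℝ), f t * secVol i K t := by
  rw [setIntegral_coord i mK bK f hf]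
  have h := integral_comp_abs (f := fun t => f t * secVol i K t)
  rw [← h]
  congr 1
  ext t
  rcases abs_choice t with ht | ht
  · rw [ht]
  · rw [ht, hev, secVol_neg i sK]

theorem vol_half (i : Fin (m + 1)) {K : Set (Fin (m + 1) → ℝ)} (sK : Solid K)
    (mK : MeasurableSet K) (bK : Bornology.IsBounded K) :
    vol K = 2 * ∫ t in Ioi (0 : ℝ), secVol i K t := by
  have h := setIntegral_coord_half i sK mK bK (fun _ => 1) continuous_const (fun _ => rfl)
  simp only [one_mul] at h
  rw [← h]
  simp [vol, Measure.real]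

end Vale.Agent.Lib.P254.Orl
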