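import Vale.Agent.Lib.P254.Orl.Half
import Vale.Agent.Lib.P254.Orl.ConeCompare

/-! M11. Berwald's inequality for a coordinate of a convex solid body.
ROUTE: `σ = secVol i K`, `D = {t | (sec i t K).Nonempty}`; `concaveOn_secVol`, `secVol_eq_zero`,
`secVol_nonneg`, `integrableOn_half` (with `f = 1, t, t^2`; on `Ioi 0` one has `|t| = t`:
`setIntegral_congr_fun measurableSet_Ioi`), `setIntegral_coord_half` with `f = fun t => t^2` and `f = |·|`,
`vol_half`, then `cone_compare` (both sides get a factor `4`).  `BddAbove D`: `K` is bounded and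
`(insertNth i t y) i = t`, so `|t| ≤ R` on `D`. -/

namespace Vale.Agent.Lib.P254.Orl

open MeasureTheory Set

theorem lemmaA (m : ℕ) (hm : 0 < m) {K : Set (Fin (m + 1) → ℝ)} (cK : Convex ℝ K) (sK : Solid K)
    (kK : IsCompact K) (i : Fin (m + 1)) :
    (∫ x in K, x i ^ 2) * vol K
      ≤ (2 * ((m : ℝ) + 2) / ((m : ℝ) + 3)) * (∫ x in K, |x i|) ^ 2 := by
  have mK : MeasurableSet K := kK.measurableSet
  have bK : Bornology.IsBounded K := kK.isBounded
  have h2 : ∫ x in K, x i ^ 2 = 2 * ∫ t in Ioi (0 : ℝ), t ^ 2 * secVol i K t :=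
    setIntegral_coord_half i sK mK bK (fun t => t ^ 2) (by fun_prop) (by intro t; ring)
  have h1 : ∫ x in K, |x i| = 2 * ∫ t in Ioi (0 : ℝ), |t| * secVol i K t :=
    setIntegral_coord_half i sK mK bK (fun t => |t|) continuous_abs abs_neg
  have h1' : ∫ t in Ioi (0 : ℝ), |t| * secVol i K t = ∫ t in Ioi (0 : ℝ), t * secVol i K t :=
    setIntegral_congr_fun measurableSet_Ioi (fun t ht => by
      have ht' : (0 : ℝ) < t := ht
      simp only [abs_of_pos ht'])
  have h0 : vol K = 2 * ∫ t in Ioi (0 : ℝ), secVol i K t := vol_half i sK mK bK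
  have i0 : IntegrableOn (secVol i K) (Ioi 0) := by
    have h := integrableOn_half i mK bK (fun _ => 1) continuous_const
    simpa only [one_mul] using h
  have i1 : IntegrableOn (fun t => t * secVol i K t) (Ioi 0) :=
    integrableOn_half i mK bK (fun t => t) continuous_id
  have i2 : IntegrableOn (fun t => t ^ 2 * secVol i K t) (Ioi 0) :=
    integrableOn_half i mK bK (fun t => t ^ 2) (by fun_prop)
  have hDb : BddAbove {t : ℝ | (sec i t K).Nonempty} := by
    obtain ⟨R, hR⟩ := bK.subset_closedBall 0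
    refine ⟨R, ?_⟩
    rintro t ⟨y, hy⟩
    have h3 := hR hy
    rw [mem_closedBall_zero_iff] at h3
    have h4 := (norm_le_pi_norm (Fin.insertNth i t y : Fin (m + 1) → ℝ) i).trans h3
    rw [Fin.insertNth_apply_same, Real.norm_eq_abs] at h4
    exact (le_abs_self t).trans h4
  have hc := cone_compare m hm (secVol i K) (secVol_nonneg i K) {t : ℝ | (sec i t K).Nonempty} hDb
    (concaveOn_secVol hm i cK sK mK bK) (fun t _ ht => secVol_eq_zero i ht) i0 i1 i2
  rw [h2, h1, h1', h0]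
  have e1 : (2 * ∫ t in Ioi (0 : ℝ), t ^ 2 * secVol i K t) * (2 * ∫ t in Ioi (0 : ℝ), secVol i K t)
      = 4 * ((∫ t in Ioi (0 : ℝ), t ^ 2 * secVol i K t) * (∫ t in Ioi (0 : ℝ), secVol i K t)) := by
    ring
  have e2 : (2 * ((m : ℝ) + 2) / ((m : ℝ) + 3)) * (2 * ∫ t in Ioi (0 : ℝ), t * secVol i K t) ^ 2
      = 4 * ((2 * ((m : ℝ) + 2) / ((m : ℝ) + 3)) * (∫ t in Ioi (0 : ℝ), t * secVol i K t) ^ 2) := by
    ring
  rw [e1, e2]
  linarith

end Vale.Agent.Lib.P254.Orl
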