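import Vale.Agent.Lib.P254.Orl.MeanYoung
import Vale.Agent.Lib.P254.Orl.Bathtub
import Vale.Agent.Lib.P254.Orl.BoxInt

/-! M12. Lemma B (helper26): the box `∏ [-2 g_i, 2 g_i]`, `g_i = E|x_i|`, has volume at most `|OB v|`.
ROUTE: `K = OB v`, `V = vol K > 0`, `G i = ∫_K |x i| ≥ 0`.  If some `G i = 0` the product is `0 ≤ V`.
Otherwise `b i = 2 G i / V > 0`, `B = Box b`, `e i = (b i)⁻¹ ∫_0^{b i} v i`.
`∫_B w = vol B (1 - ∑ e i)` (`integral_w_eq`, `setIntegral_Box_coord`),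
`∫_K w = V - ∑ ∫_K v_i(x_i) ≤ V (1 - ∑ e i)` (`integral_w_eq`, `meanYoung_le`),
`∫_B w ≤ ∫_K w` (`bathtub`), `0 < ∫_K w` (`integral_w_pos`).  So `1 - ∑ e i > 0` and `vol B ≤ V`;
`vol B = ∏ 2 b i = ∏ 4 (V⁻¹ G i)` (`vol_Box`). -/

namespace Vale.Agent.Lib.P254.Orl

open MeasureTheory Set

theorem lemmaB (m : ℕ) {v : Fin (m + 1) → ℝ → ℝ} (hv : ∀ i, IsYoung (v i)) :
    ∏ i, (4 * ((vol (OB v))⁻¹ * ∫ x in OB v, |x i|)) ≤ vol (OB v) := by
  have hV : 0 < vol (OB v) := vol_OB_pos hv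
  have kK := isCompact_OB hv
  have hG0 : ∀ i, 0 ≤ ∫ x in OB v, |x i| := fun i => integral_nonneg (fun x => abs_nonneg _)
  by_cases hz : ∃ i, ∫ x in OB v, |x i| = 0
  · obtain ⟨i, hi⟩ := hz
    rw [Finset.prod_eq_zero (Finset.mem_univ i) (by rw [hi]; ring)]
    exact hV.le
  · push Not at hz
    have hG : ∀ i, 0 < ∫ x in OB v, |x i| := fun i => lt_of_le_of_ne (hG0 i) (Ne.symm (hz i))
    obtain ⟨b, hbdef⟩ : ∃ b : Fin (m + 1) → ℝ,
        ∀ i, b i = 2 * ((vol (OB v))⁻¹ * ∫ x in OB v, |x i|) := ⟨_, fun i => rfl⟩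
    have hb : ∀ i, 0 < b i := fun i => by
      rw [hbdef i]
      have := hG i
      positivity
    have hbV : ∀ i, b i * vol (OB v) = 2 * ∫ x in OB v, |x i| := by
      intro i
      rw [hbdef i]
      field_simp
    have kB := isCompact_Box b
    have hvolB : vol (Box b) = ∏ i, (2 * b i) := vol_Box b (fun i => (hb i).le)
    obtain ⟨e, hedef⟩ : ∃ e : Fin (m + 1) → ℝ,
        ∀ i, e i = (b i)⁻¹ * ∫ t in (0 : ℝ)..(b i), v i t := ⟨_, fun i => rfl⟩
    have hB : ∫ x in Box b, (1 - ∑ i, v i (x i)) = vol (Box b) * (1 - ∑ i, e i) := by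
      rw [integral_w_eq hv _ kB, mul_sub, mul_one, Finset.mul_sum]
      congr 1
      apply Finset.sum_congr rfl
      intro i _
      have h := setIntegral_Box_coord b hb i (v i) (hv i).continuous (hv i).even
      rw [hedef i, ← mul_assoc, mul_comm (vol (Box b)), mul_assoc, ← h, ← mul_assoc,
        inv_mul_cancel₀ (hb i).ne', one_mul]
    have hK : ∫ x in OB v, (1 - ∑ i, v i (x i)) ≤ vol (OB v) * (1 - ∑ i, e i) := by
      rw [integral_w_eq hv _ kK, mul_sub, mul_one, Finset.mul_sum]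
      apply sub_le_sub_left
      apply Finset.sum_le_sum
      intro i _
      have h := meanYoung_le m hv i (b i) (hbV i)
      rw [hedef i, ← mul_assoc, mul_comm (vol (OB v)), mul_assoc, inv_mul_le_iff₀ (hb i)]
      exact h
    have hbt := bathtub hv (Box b) kB
    have hpos := integral_w_pos hv
    have hS : 0 < 1 - ∑ i, e i := by
      by_contra hcon
      push Not at hcon
      have : vol (OB v) * (1 - ∑ i, e i) ≤ 0 := mul_nonpos_of_nonneg_of_nonpos hV.le hcon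
      linarith
    have hfin : vol (Box b) ≤ vol (OB v) := by
      have : vol (Box b) * (1 - ∑ i, e i) ≤ vol (OB v) * (1 - ∑ i, e i) := by linarith
      exact le_of_mul_le_mul_right this hS
    calc ∏ i, (4 * ((vol (OB v))⁻¹ * ∫ x in OB v, |x i|)) = ∏ i, (2 * b i) := by
          apply Finset.prod_congr rfl
          intro i _
          rw [hbdef i]
          ring
      _ = vol (Box b) := hvolB.symm
      _ ≤ vol (OB v) := hfin

end Vale.Agent.Lib.P254.Orl
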