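import Vale.Agent.Lib.P254.Orl.Defs

/-! M13. The numerical inequality `(n+1)^(2n+1) < 8^n (n!)^2` for `n ≥ 2`, and its consequence.
ROUTE: induction from `n = 2` (`243 < 256`).  Step: it suffices that
`(n+2)^(2n+3) ≤ 8 (n+1)^2 (n+1)^(2n+1)`, i.e. `(1 + 1/k)^(2k+1) ≤ 8` for `k = n+1 ≥ 3`.
`log (1 + 1/k) ≤ (2k+1) / (2k(k+1))` is one way (then `(2k+1) log(1+1/k) ≤ 2 + 1/(2k(k+1)) ≤ 2 + 1/24`,
`exp (2 + 1/24) < 8` from `Real.exp_one_lt_d9`).  Another way: `(1+1/k)^k ≤ e < 2.7183`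
(`Real.add_one_le_exp`), so `(1+1/k)^(2k+1) ≤ e^2 (1 + 1/k) ≤ 7.3892 * (1+1/k)`, which is `≤ 8` for `k ≥ 13`;
check `3 ≤ k ≤ 12` by `norm_num` (integer form `(k+1)^(2k+1) ≤ 8 k^(2k+1)`). -/

namespace Vale.Agent.Lib.P254.Orl

private theorem key_small (k : ℕ) (h3 : 3 ≤ k) (h12 : k ≤ 12) :
    (k + 1) ^ (2 * k + 1) ≤ 8 * k ^ (2 * k + 1) := by
  interval_cases k <;> norm_num

private theorem key (k : ℕ) (h3 : 3 ≤ k) :
    ((k : ℝ) + 1) ^ (2 * k + 1) ≤ 8 * (k : ℝ) ^ (2 * k + 1) := by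
  rcases Nat.lt_or_ge k 13 with h | h
  · have := key_small k h3 (by omega)
    exact_mod_cast this
  · have hk : (13 : ℝ) ≤ k := by exact_mod_cast h
    have hk0 : (0 : ℝ) < k := by linarith
    have h1 : 1 + 1 / (k : ℝ) ≤ Real.exp (1 / (k : ℝ)) := by
      have := Real.add_one_le_exp (1 / (k : ℝ))
      linarith
    have h0 : (0 : ℝ) ≤ 1 + 1 / (k : ℝ) := by positivity
    have h2 : (1 + 1 / (k : ℝ)) ^ (2 * k) ≤ Real.exp 2 := by
      calc (1 + 1 / (k : ℝ)) ^ (2 * k) ≤ (Real.exp (1 / (k : ℝ))) ^ (2 * k) :=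
            pow_le_pow_left₀ h0 h1 _
        _ = Real.exp 2 := by
            rw [← Real.exp_nat_mul]
            congr 1
            push_cast
            field_simp
    have h3' : Real.exp 2 < 7.3891 := by
      have h4 : Real.exp 2 = Real.exp 1 * Real.exp 1 := by rw [← Real.exp_add]; norm_num
      have h5 := Real.exp_one_lt_d9
      have h6 : 0 < Real.exp 1 := Real.exp_pos 1
      rw [h4]
      nlinarith
    have h7 : 1 + 1 / (k : ℝ) ≤ 14 / 13 := by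
      have : 1 / (k : ℝ) ≤ 1 / 13 := one_div_le_one_div_of_le (by norm_num) hk
      linarith
    have h8 : (1 + 1 / (k : ℝ)) ^ (2 * k + 1) ≤ 8 := by
      rw [pow_succ]
      have h9 : (0 : ℝ) ≤ (1 + 1 / (k : ℝ)) ^ (2 * k) := by positivity
      calc (1 + 1 / (k : ℝ)) ^ (2 * k) * (1 + 1 / (k : ℝ)) ≤ 7.3891 * (14 / 13) :=
            mul_le_mul (by linarith) h7 h0 (by norm_num)
        _ ≤ 8 := by norm_num
    have h10 : ((k : ℝ) + 1) = (1 + 1 / (k : ℝ)) * k := by field_simp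
    rw [h10, mul_pow]
    exact mul_le_mul_of_nonneg_right h8 (by positivity)

theorem numeric (n : ℕ) (hn : 2 ≤ n) :
    ((n : ℝ) + 1) ^ (2 * n + 1) < 8 ^ n * ((n.factorial : ℝ)) ^ 2 := by
  induction n, hn using Nat.le_induction with
  | base => norm_num [Nat.factorial]
  | succ n hn ih =>
    have hk := key (n + 1) (by omega)
    push_cast at hk ⊢
    have e1 : 2 * (n + 1) + 1 = (2 * n + 1) + 2 := by ring
    rw [e1] at hk ⊢
    have hpos : (0 : ℝ) < ((n : ℝ) + 1) ^ 2 := by positivity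
    rw [Nat.factorial_succ]
    push_cast
    calc ((n : ℝ) + 1 + 1) ^ (2 * n + 1 + 2) ≤ 8 * ((n : ℝ) + 1) ^ (2 * n + 1 + 2) := hk
      _ = 8 * ((n : ℝ) + 1) ^ 2 * ((n : ℝ) + 1) ^ (2 * n + 1) := by ring
      _ < 8 * ((n : ℝ) + 1) ^ 2 * (8 ^ n * ((n.factorial : ℝ)) ^ 2) := by
          apply mul_lt_mul_of_pos_left ih (by positivity)
      _ = 8 ^ (n + 1) * (((n : ℝ) + 1) * (n.factorial : ℝ)) ^ 2 := by ring

theorem bound_lt_simplexRatio (n : ℕ) (hn : 2 ≤ n) :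
    (((n : ℝ) + 1) / (8 * ((n : ℝ) + 2))) ^ n < simplexRatio n := by
  have h := numeric n hn
  unfold simplexRatio
  rw [div_pow, mul_pow, div_lt_div_iff₀ (by positivity) (by positivity)]
  have hpos : (0 : ℝ) < ((n : ℝ) + 2) ^ n := by positivity
  calc ((n : ℝ) + 1) ^ n * (((n : ℝ) + 1) ^ (n + 1) * ((n : ℝ) + 2) ^ n)
      = ((n : ℝ) + 1) ^ (2 * n + 1) * ((n : ℝ) + 2) ^ n := by ring
    _ < (8 ^ n * ((n.factorial : ℝ)) ^ 2) * ((n : ℝ) + 2) ^ n :=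
        mul_lt_mul_of_pos_right h hpos
    _ = ((n.factorial : ℝ)) ^ 2 * (8 ^ n * ((n : ℝ) + 2) ^ n) := by ring

end Vale.Agent.Lib.P254.Orl
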