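import Vale.Agent.Lib.P254.Orl.Defs

/-! M10. Centroid and covariance matrix of a compact solid set.
ROUTE: the reflection `R_i x = Function.update x i (-(x i))` is measure preserving
(`MeasureTheory.measurePreserving_pi` with `Measure.measurePreserving_neg` at `i` and `id` elsewhere, or a
linear map of determinant `-1`), an involution, and `R_i ⁻¹' K = K` for solid `K`.  Hence
`∫_K F (R_i x) = ∫_K F x` (`MeasurePreserving.setIntegral_preimage_emb` with the measurable
equivalence), so `∫_K x_i = 0` and `∫_K x_i x_j = 0` for `i ≠ j`.  Then `centroid K = 0`,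
`covMatrix K = Matrix.diagonal _`, `Matrix.det_diagonal`. -/

namespace Vale.Agent.Lib.P254.Orl

open MeasureTheory Set

variable {n : ℕ}

/-- reflection in the coordinate hyperplane `x_i = 0` -/
private def refl (i : Fin n) (x : Fin n → ℝ) : Fin n → ℝ := fun k => if k = i then -(x k) else x k

private lemma refl_refl (i : Fin n) (x : Fin n → ℝ) : refl i (refl i x) = x := by
  ext k
  unfold refl
  split_ifs <;> simp

private lemma measurable_refl (i : Fin n) : Measurable (refl i) := by
  apply measurable_pi_lambda
  intro k
  unfold refl
  by_cases h : k = i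
  · simp only [h, if_true]
    exact (measurable_pi_apply i).neg
  · simp only [h, if_false]
    exact measurable_pi_apply k

private def reflEquiv (i : Fin n) : (Fin n → ℝ) ≃ᵐ (Fin n → ℝ) where
  toFun := refl i
  invFun := refl i
  left_inv := refl_refl i
  right_inv := refl_refl i
  measurable_toFun := measurable_refl i
  measurable_invFun := measurable_refl i

private lemma mp_refl (i : Fin n) : MeasurePreserving (refl i) volume volume := by
  have h := measurePreserving_pi (fun _ : Fin n => (volume : Measure ℝ)) (fun _ => volume)
    (f := fun k => if k = i then Neg.neg else id)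
    (fun k => by
      by_cases hk : k = i
      · simp only [hk, if_true]
        exact Measure.measurePreserving_neg _
      · simp only [hk, if_false]
        exact MeasurePreserving.id _)
  have e : (fun (a : Fin n → ℝ) k => (if k = i then Neg.neg else id : ℝ → ℝ) (a k)) = refl i := by
    ext a k
    unfold refl
    split_ifs <;> simp
  rw [e] at h
  exact h

private lemma refl_abs (i : Fin n) (x : Fin n → ℝ) (k : Fin n) : |refl i x k| = |x k| := by
  unfold refl
  split_ifs <;> simp

private lemma refl_preimage {K : Set (Fin n → ℝ)} (sK : Solid K) (i : Fin n) :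
    refl i ⁻¹' K = K := by
  ext x
  constructor
  · intro hx
    exact sK _ hx x (fun k => (refl_abs i x k).ge)
  · intro hx
    exact sK _ hx _ (fun k => (refl_abs i x k).le)

private lemma integral_refl {K : Set (Fin n → ℝ)} (sK : Solid K) (i : Fin n)
    (F : (Fin n → ℝ) → ℝ) : ∫ x in K, F (refl i x) = ∫ x in K, F x := by
  have h := (mp_refl i).setIntegral_preimage_emb (reflEquiv i).measurableEmbedding F K
  rw [refl_preimage sK i] at h
  exact h

theorem integral_coord_eq_zero {K : Set (Fin n → ℝ)} (sK : Solid K) (mK : MeasurableSet K)
    (i : Fin n) : ∫ x in K, x i = 0 := by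
  have h := integral_refl sK i (fun x => x i)
  have e : (fun x : Fin n → ℝ => refl i x i) = fun x => -(x i) := by
    ext x
    simp [refl]
  simp only [e, integral_neg] at h
  linarith

theorem integral_mul_eq_zero {K : Set (Fin n → ℝ)} (sK : Solid K) (mK : MeasurableSet K)
    {i j : Fin n} (hij : i ≠ j) : ∫ x in K, x i * x j = 0 := by
  have h := integral_refl sK i (fun x => x i * x j)
  have e : (fun x : Fin n → ℝ => refl i x i * refl i x j) = fun x => -(x i * x j) := by
    ext x
    simp [refl, hij.symm]
  simp only [e, integral_neg] at h
  linarith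

theorem ratio_solid {K : Set (Fin n → ℝ)} (sK : Solid K) (mK : MeasurableSet K) :
    ratio K = (∏ i, ((vol K)⁻¹ * ∫ x in K, x i ^ 2)) / vol K ^ 2 := by
  have hc : ∀ i, centroid K i = 0 := by
    intro i
    simp [centroid, integral_coord_eq_zero sK mK i]
  have hM : covMatrix K = Matrix.diagonal (fun i => (vol K)⁻¹ * ∫ x in K, x i ^ 2) := by
    ext i j
    by_cases hij : i = j
    · subst hij
      simp only [covMatrix, hc, sub_zero, Matrix.diagonal_apply_eq]
      congr 2
      ext x
      ring
    · simp only [covMatrix, hc, sub_zero, Matrix.diagonal_apply_ne _ hij,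
        integral_mul_eq_zero sK mK hij, mul_zero]
  unfold ratio
  rw [hM, Matrix.det_diagonal]

end Vale.Agent.Lib.P254.Orl
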