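import Vale.Agent.Lib.P254.Orl.LemmaA
import Vale.Agent.Lib.P254.Orl.LemmaB
import Vale.Agent.Lib.P254.Orl.Sym
import Vale.Agent.Lib.P254.Orl.Numeric

/-! M14. Assembly.
ROUTE: `ratio_solid`; with `V = vol K`, `c = 2(m+2)/(m+3)`: `lemmaA` gives
`V⁻¹ ∫ x_i^2 ≤ c (V⁻¹ ∫|x_i|)^2`; `Finset.prod_le_prod`, `Finset.prod_mul_distrib`, `Finset.prod_pow`:
`∏ ≤ c^n (∏ V⁻¹ G_i)^2 = (c/16)^n (∏ 4 V⁻¹ G_i)^2 ≤ (c/16)^n V^2`, and `c/16 = (n+1)/(8(n+2))`, `n = m+1`. -/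

namespace Vale.Agent.Lib.P254.Orl

open MeasureTheory Set

theorem ratio_le_of_box (m : ℕ) (hm : 0 < m) {K : Set (Fin (m + 1) → ℝ)} (cK : Convex ℝ K)
    (sK : Solid K) (kK : IsCompact K) (hV : 0 < vol K)
    (hB : ∏ i, (4 * ((vol K)⁻¹ * ∫ x in K, |x i|)) ≤ vol K) :
    ratio K ≤ ((((m + 1 : ℕ) : ℝ) + 1) / (8 * (((m + 1 : ℕ) : ℝ) + 2))) ^ (m + 1) := by
  rw [ratio_solid sK kK.measurableSet]
  set V := vol K with hVdef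
  set q : ℝ := (((m + 1 : ℕ) : ℝ) + 1) / (8 * (((m + 1 : ℕ) : ℝ) + 2)) with hq
  have hq0 : 0 ≤ q := by rw [hq]; positivity
  have hG0 : ∀ i, 0 ≤ 4 * (V⁻¹ * ∫ x in K, |x i|) := fun i =>
    mul_nonneg (by norm_num) (mul_nonneg (inv_nonneg.mpr hV.le)
      (integral_nonneg fun x => abs_nonneg _))
  have hfac : ∀ i, V⁻¹ * ∫ x in K, x i ^ 2 ≤ q * (4 * (V⁻¹ * ∫ x in K, |x i|)) ^ 2 := by
    intro i
    have h := lemmaA m hm cK sK kK i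
    have e1 : V⁻¹ * ∫ x in K, x i ^ 2 = ((∫ x in K, x i ^ 2) * V) * (V⁻¹) ^ 2 := by
      field_simp
    have e2 : q * (4 * (V⁻¹ * ∫ x in K, |x i|)) ^ 2
        = ((2 * ((m : ℝ) + 2) / ((m : ℝ) + 3)) * (∫ x in K, |x i|) ^ 2) * (V⁻¹) ^ 2 := by
      rw [hq]
      push_cast
      have h3 : (m : ℝ) + 3 ≠ 0 := by positivity
      have h3' : (m : ℝ) + 1 + 2 ≠ 0 := by positivity
      field_simp
      ring
    rw [e1, e2]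
    exact mul_le_mul_of_nonneg_right h (by positivity)
  have hprod : ∏ i, (V⁻¹ * ∫ x in K, x i ^ 2)
      ≤ ∏ i : Fin (m + 1), (q * (4 * (V⁻¹ * ∫ x in K, |x i|)) ^ 2) :=
    Finset.prod_le_prod (fun i _ => mul_nonneg (inv_nonneg.mpr hV.le)
      (integral_nonneg fun x => sq_nonneg _)) (fun i _ => hfac i)
  have hrew : ∏ i : Fin (m + 1), (q * (4 * (V⁻¹ * ∫ x in K, |x i|)) ^ 2)
      = q ^ (m + 1) * (∏ i, (4 * (V⁻¹ * ∫ x in K, |x i|))) ^ 2 := by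
    rw [Finset.prod_mul_distrib, Finset.prod_const, Finset.prod_pow]
    simp
  have hP0 : 0 ≤ ∏ i, (4 * (V⁻¹ * ∫ x in K, |x i|)) := Finset.prod_nonneg fun i _ => hG0 i
  have hsq : (∏ i, (4 * (V⁻¹ * ∫ x in K, |x i|))) ^ 2 ≤ V ^ 2 :=
    pow_le_pow_left₀ hP0 hB 2
  rw [div_le_iff₀ (by positivity)]
  calc ∏ i, (V⁻¹ * ∫ x in K, x i ^ 2)
      ≤ q ^ (m + 1) * (∏ i, (4 * (V⁻¹ * ∫ x in K, |x i|))) ^ 2 := hrew ▸ hprod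
    _ ≤ q ^ (m + 1) * V ^ 2 := mul_le_mul_of_nonneg_left hsq (by positivity)

end Vale.Agent.Lib.P254.Orl
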