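import Vale.Agent.Lib.P254.Orl.Defs

/-! M9. Basic properties of Young functions and generalized Orlicz balls. -/

namespace Vale.Agent.Lib.P254.Orl

open MeasureTheory Set

theorem IsYoung.continuous {u : ℝ → ℝ} (hu : IsYoung u) : Continuous u := by
  have h := hu.conv.continuousOn isOpen_univ
  exact continuousOn_univ.mp h

theorem IsYoung.nonneg {u : ℝ → ℝ} (hu : IsYoung u) (t : ℝ) : 0 ≤ u t := by
  have h := hu.conv.2 (mem_univ t) (mem_univ (-t)) (by norm_num : (0 : ℝ) ≤ 1 / 2)
    (by norm_num : (0 : ℝ) ≤ 1 / 2) (by norm_num)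
  simp only [smul_eq_mul, hu.even] at h
  have e : (1 / 2 : ℝ) * t + 1 / 2 * -t = 0 := by ring
  rw [e, hu.zero] at h
  linarith

theorem IsYoung.mono {u : ℝ → ℝ} (hu : IsYoung u) {a b : ℝ} (h : |a| ≤ |b|) : u a ≤ u b := by
  have habs : ∀ t, u |t| = u t := by
    intro t
    rcases abs_choice t with h | h <;> rw [h]
    exact hu.even t
  rw [← habs a, ← habs b]
  rcases eq_or_lt_of_le (abs_nonneg b) with hb | hb
  · have : |a| = 0 := le_antisymm (hb ▸ h) (abs_nonneg a)
    rw [this, ← hb]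
  · have hθ0 : 0 ≤ |a| / |b| := by positivity
    have hθ1 : |a| / |b| ≤ 1 := (div_le_one hb).mpr h
    have hc := hu.conv.2 (mem_univ |b|) (mem_univ (0 : ℝ)) hθ0 (sub_nonneg.mpr hθ1) (by ring)
    simp only [smul_eq_mul, hu.zero, mul_zero, add_zero] at hc
    have e : |a| / |b| * |b| = |a| := by field_simp
    rw [e] at hc
    calc u |a| ≤ |a| / |b| * u |b| := hc
      _ ≤ 1 * u |b| := mul_le_mul_of_nonneg_right hθ1 (hu.nonneg _)
      _ = u |b| := one_mul _

variable {n : ℕ} {v : Fin n → ℝ → ℝ}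

theorem continuous_sumYoung (hv : ∀ i, IsYoung (v i)) :
    Continuous fun x : Fin n → ℝ => ∑ i, v i (x i) :=
  continuous_finsetSum _ fun i _ => (hv i).continuous.comp (continuous_apply i)

theorem convex_OB (hv : ∀ i, IsYoung (v i)) : Convex ℝ (OB v) := by
  intro x hx y hy a b ha hb hab
  simp only [OB, mem_setOf_eq] at hx hy ⊢
  have h1 : ∀ i, v i ((a • x + b • y) i) ≤ a * v i (x i) + b * v i (y i) := by
    intro i
    have := (hv i).conv.2 (mem_univ (x i)) (mem_univ (y i)) ha hb hab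
    simpa using this
  calc ∑ i, v i ((a • x + b • y) i) ≤ ∑ i, (a * v i (x i) + b * v i (y i)) :=
        Finset.sum_le_sum fun i _ => h1 i
    _ = a * ∑ i, v i (x i) + b * ∑ i, v i (y i) := by
        rw [Finset.sum_add_distrib, Finset.mul_sum, Finset.mul_sum]
    _ ≤ a * 1 + b * 1 := by gcongr
    _ = 1 := by linarith

theorem solid_OB (hv : ∀ i, IsYoung (v i)) : Solid (OB v) := by
  intro x hx y hy
  simp only [OB, mem_setOf_eq] at hx ⊢
  exact le_trans (Finset.sum_le_sum fun i _ => (hv i).mono (hy i)) hx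

theorem isCompact_OB (hv : ∀ i, IsYoung (v i)) : IsCompact (OB v) := by
  choose c hc using fun i => (hv i).big
  have hcl : IsClosed (OB v) := isClosed_le (continuous_sumYoung hv) continuous_const
  have hsub : OB v ⊆ Icc (fun i => -|c i|) (fun i => |c i|) := by
    intro x hx
    simp only [OB, mem_setOf_eq] at hx
    have key : ∀ i, |x i| ≤ |c i| := by
      intro i
      by_contra hlt
      rw [not_le] at hlt
      have h1 : v i (c i) ≤ v i (x i) := (hv i).mono hlt.le
      have h2 : v i (x i) ≤ ∑ j, v j (x j) :=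
        Finset.single_le_sum (f := fun j => v j (x j)) (fun j _ => (hv j).nonneg _)
          (Finset.mem_univ i)
      linarith [hc i]
    exact ⟨fun i => (abs_le.mp (key i)).1, fun i => (abs_le.mp (key i)).2⟩
  exact isCompact_Icc.of_isClosed_subset hcl hsub

theorem zero_mem_interior_OB (hv : ∀ i, IsYoung (v i)) : (0 : Fin n → ℝ) ∈ interior (OB v) := by
  have hopen : IsOpen {x : Fin n → ℝ | ∑ i, v i (x i) < 1} :=
    isOpen_lt (continuous_sumYoung hv) continuous_const
  have hsub : {x : Fin n → ℝ | ∑ i, v i (x i) < 1} ⊆ OB v := by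
    intro x hx
    have hx' : ∑ i, v i (x i) < 1 := hx
    show ∑ i, v i (x i) ≤ 1
    exact hx'.le
  refine interior_maximal hsub hopen ?_
  simp [(hv _).zero]

theorem isConvexBody_OB (hv : ∀ i, IsYoung (v i)) : IsConvexBody (OB v) :=
  ⟨isCompact_OB hv, convex_OB hv, ⟨0, zero_mem_interior_OB hv⟩⟩

theorem vol_OB_pos (hv : ∀ i, IsYoung (v i)) : 0 < vol (OB v) :=
  vol_pos (isConvexBody_OB hv)

end Vale.Agent.Lib.P254.Orl
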