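import Vale.Agent.Lib.P254.Orl.Half
import Vale.Agent.Lib.P254.Orl.ConvexOrder
import Vale.Agent.Lib.P254.Orl.OBBasic

/-! M12c. The mean of `v_i(x_i)` over the Orlicz ball dominates its mean over `[-b, b]`, `b = 2 E|x_i|`.
ROUTE: `K = OB v` is compact, solid (OBBasic).  `σ = secVol i K` is nonnegative, antitone on `Ici 0`
(`secVol_le_secVol`), `vol K = 2 ∫_{t>0} σ` (`vol_half`), `∫_K |x_i| = 2 ∫_{t>0} t σ`,
`∫_K v_i(x_i) = 2 ∫_{t>0} v_i σ` (`setIntegral_coord_half`; `|t| = t` on `Ioi 0`), integrability from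
`integrableOn_half`.  Apply `convex_order` with `u = v i` (convex on `Ici 0` by restriction,
continuous). -/

namespace Vale.Agent.Lib.P254.Orl

open MeasureTheory Set

theorem meanYoung_le (m : ℕ) {v : Fin (m + 1) → ℝ → ℝ} (hv : ∀ i, IsYoung (v i)) (i : Fin (m + 1))
    (b : ℝ) (hb : b * vol (OB v) = 2 * ∫ x in OB v, |x i|) :
    vol (OB v) * (∫ t in (0 : ℝ)..b, v i t) ≤ b * ∫ x in OB v, v i (x i) := by
  have kK := isCompact_OB hv
  have sK := solid_OB hv
  have mK : MeasurableSet (OB v) := kK.measurableSet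
  have bK := kK.isBounded
  have hV := vol_half i sK mK bK
  have h1 := setIntegral_coord_half i sK mK bK (fun t => |t|) continuous_abs (fun t => abs_neg t)
  have h2 := setIntegral_coord_half i sK mK bK (v i) (hv i).continuous (hv i).even
  have h1' : ∫ t in Ioi (0 : ℝ), |t| * secVol i (OB v) t
      = ∫ t in Ioi (0 : ℝ), t * secVol i (OB v) t := by
    apply setIntegral_congr_fun measurableSet_Ioi
    intro t ht
    simp only [abs_of_pos (mem_Ioi.mp ht)]
  have hpos : 0 < ∫ t in Ioi (0 : ℝ), secVol i (OB v) t := by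
    have := vol_OB_pos hv
    linarith
  have hanti : AntitoneOn (secVol i (OB v)) (Ici 0) := by
    intro s hs t ht hst
    apply secVol_le_secVol i sK bK
    rw [abs_of_nonneg (mem_Ici.mp hs), abs_of_nonneg (mem_Ici.mp ht)]
    exact hst
  have i0 : IntegrableOn (secVol i (OB v)) (Ioi 0) := by
    have := integrableOn_half i mK bK (fun _ => (1 : ℝ)) continuous_const
    simpa only [one_mul] using this
  have i1 : IntegrableOn (fun t => t * secVol i (OB v) t) (Ioi 0) :=
    integrableOn_half i mK bK (fun t => t) continuous_id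
  have iu : IntegrableOn (fun t => v i t * secVol i (OB v) t) (Ioi 0) :=
    integrableOn_half i mK bK (v i) (hv i).continuous
  have hb' : b * (∫ t in Ioi (0 : ℝ), secVol i (OB v) t)
      = 2 * ∫ t in Ioi (0 : ℝ), t * secVol i (OB v) t := by
    rw [hV, h1, h1'] at hb
    linarith
  have key := convex_order (secVol i (OB v)) (fun t => ENNReal.toReal_nonneg) hanti (v i)
    ((hv i).conv.subset (subset_univ _) (convex_Ici 0)) (hv i).continuous.continuousOn
    i0 i1 iu hpos b hb'
  rw [hV, h2]
  nlinarith [key]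

end Vale.Agent.Lib.P254.Orl
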