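import Vale.Agent.Lib.P254.Orl.SolidReal

/-! M2. One-dimensional Prekopa-Leindler for even unimodal functions.
ROUTE: `F = f 0 = sup f`, `G = g 0 = sup g`.  If `F = 0` then `f = 0` and the left side is `0`
(`ENNReal.zero_rpow_of_pos`); same for `G`.  Otherwise put `f' = f / F`, `g' = g / G`,
`h' = h / (F^s G^t)`; then `f' x ^ s * g' y ^ t ≤ h' (s x + t y)`, `f' ≤ 1`, `g' ≤ 1`, `f' 0 = g' 0 = 1`.
For `0 < τ < 1` the sets `{τ < f'}`, `{τ < g'}` are solid and contain `0`, and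
`τ < f' x`, `τ < g' y` give `τ = τ^s τ^t < h' (s x + t y)`; so `solid_real` gives
`s vol{τ < f'} + t vol{τ < g'} ≤ vol{τ < h'}`.  For `τ ≥ 1` the sets `{τ < f'}`, `{τ < g'}` are empty.
Layer cake `MeasureTheory.lintegral_eq_lintegral_meas_lt` (three times) gives
`s ∫⁻ f' + t ∫⁻ g' ≤ ∫⁻ h'`; weighted AM-GM `ENNReal.geom_mean_le_arith_mean2_weighted`
(or `ENNReal.inner_le...`) gives `(∫⁻ f')^s (∫⁻ g')^t ≤ ∫⁻ h'`; undo the normalisation
(`lintegral_const_mul`, `ENNReal.mul_rpow_of_nonneg`, `ENNReal.ofReal_mul`, `ENNReal.ofReal_rpow_of_pos`). -/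

namespace Vale.Agent.Lib.P254.Orl

open MeasureTheory Set

private theorem amgm_ennreal (A B : ENNReal) (s t : ℝ) (hs : 0 < s) (ht : 0 < t) (hst : s + t = 1) :
    A ^ s * B ^ t ≤ ENNReal.ofReal s * A + ENNReal.ofReal t * B := by
  by_cases hA : A = ⊤
  · subst hA
    rw [ENNReal.mul_top (by simpa using hs)]
    simp
  by_cases hB : B = ⊤
  · subst hB
    rw [ENNReal.mul_top (by simpa using ht)]
    simp
  lift A to NNReal using hA
  lift B to NNReal using hB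
  have h := NNReal.geom_mean_le_arith_mean2_weighted s.toNNReal t.toNNReal A B (by
    rw [← Real.toNNReal_add hs.le ht.le, hst, Real.toNNReal_one])
  rw [Real.coe_toNNReal _ hs.le, Real.coe_toNNReal _ ht.le] at h
  have h2 : ((A ^ s * B ^ t : NNReal) : ENNReal)
      ≤ ((s.toNNReal * A + t.toNNReal * B : NNReal) : ENNReal) := by exact_mod_cast h
  rw [ENNReal.coe_mul, ENNReal.coe_rpow_of_nonneg _ hs.le, ENNReal.coe_rpow_of_nonneg _ ht.le] at h2
  simpa [ENNReal.ofReal] using h2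

private theorem pl_one_norm (f g h : ℝ → ℝ) (hf : Measurable f) (hg : Measurable g) (hh : Measurable h)
    (f0 : ∀ x, 0 ≤ f x) (g0 : ∀ x, 0 ≤ g x) (h0 : ∀ x, 0 ≤ h x)
    (uf : ∀ x y : ℝ, |y| ≤ |x| → f x ≤ f y) (ug : ∀ x y : ℝ, |y| ≤ |x| → g x ≤ g y)
    (f1 : f 0 = 1) (g1 : g 0 = 1)
    (s t : ℝ) (hs : 0 < s) (ht : 0 < t) (hst : s + t = 1)
    (H : ∀ x y, f x ^ s * g y ^ t ≤ h (s * x + t * y)) :
    ENNReal.ofReal s * (∫⁻ x, ENNReal.ofReal (f x)) + ENNReal.ofReal t * (∫⁻ x, ENNReal.ofReal (g x))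
      ≤ ∫⁻ x, ENNReal.ofReal (h x) := by
  have fle : ∀ x, f x ≤ 1 := fun x => f1 ▸ uf x 0 (by simp)
  have gle : ∀ x, g x ≤ 1 := fun x => g1 ▸ ug x 0 (by simp)
  rw [lintegral_eq_lintegral_meas_lt volume (Filter.Eventually.of_forall f0) hf.aemeasurable,
    lintegral_eq_lintegral_meas_lt volume (Filter.Eventually.of_forall g0) hg.aemeasurable,
    lintegral_eq_lintegral_meas_lt volume (Filter.Eventually.of_forall h0) hh.aemeasurable,
    ← lintegral_const_mul' _ _ ENNReal.ofReal_ne_top, ← lintegral_const_mul' _ _ ENNReal.ofReal_ne_top]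
  refine (le_lintegral_add _ _).trans ?_
  refine setLIntegral_mono' measurableSet_Ioi (fun τ hτ => ?_)
  have hτ0 : 0 < τ := hτ
  by_cases hτ1 : 1 ≤ τ
  · have e1 : {a | τ < f a} = ∅ := by
      ext a
      simp only [mem_ofPred_eq, mem_empty_iff_false, iff_false, not_lt]
      exact (fle a).trans hτ1
    have e2 : {a | τ < g a} = ∅ := by
      ext a
      simp only [mem_ofPred_eq, mem_empty_iff_false, iff_false, not_lt]
      exact (gle a).trans hτ1
    rw [e1, e2]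
    simp
  · have hτ1' : τ < 1 := not_le.1 hτ1
    refine solid_real {a | τ < f a} {a | τ < g a} {a | τ < h a} ?_ ?_ ⟨0, ?_⟩ ⟨0, ?_⟩ s t hs ht ?_
    · intro x hx y hy
      exact lt_of_lt_of_le hx (uf x y hy)
    · intro x hx y hy
      exact lt_of_lt_of_le hx (ug x y hy)
    · show τ < f 0
      rw [f1]; exact hτ1'
    · show τ < g 0
      rw [g1]; exact hτ1'
    · intro x hx y hy
      have hx' : τ < f x := hx
      have hy' : τ < g y := hy
      show τ < h (s * x + t * y)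
      have e : τ = τ ^ s * τ ^ t := by
        rw [← Real.rpow_add hτ0, hst, Real.rpow_one]
      have l1 : τ ^ s < f x ^ s := Real.rpow_lt_rpow hτ0.le hx' hs
      have l2 : τ ^ t < g y ^ t := Real.rpow_lt_rpow hτ0.le hy' ht
      have l3 : τ ^ s * τ ^ t < f x ^ s * g y ^ t :=
        mul_lt_mul'' l1 l2 (Real.rpow_nonneg hτ0.le _) (Real.rpow_nonneg hτ0.le _)
      calc τ = τ ^ s * τ ^ t := e
        _ < f x ^ s * g y ^ t := l3
        _ ≤ h (s * x + t * y) := H x y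

theorem pl_one (f g h : ℝ → ℝ) (hf : Measurable f) (hg : Measurable g) (hh : Measurable h)
    (f0 : ∀ x, 0 ≤ f x) (g0 : ∀ x, 0 ≤ g x) (h0 : ∀ x, 0 ≤ h x)
    (uf : ∀ x y : ℝ, |y| ≤ |x| → f x ≤ f y) (ug : ∀ x y : ℝ, |y| ≤ |x| → g x ≤ g y)
    (s t : ℝ) (hs : 0 < s) (ht : 0 < t) (hst : s + t = 1)
    (H : ∀ x y, f x ^ s * g y ^ t ≤ h (s * x + t * y)) :
    (∫⁻ x, ENNReal.ofReal (f x)) ^ s * (∫⁻ x, ENNReal.ofReal (g x)) ^ t
      ≤ ∫⁻ x, ENNReal.ofReal (h x) := by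
  have fle : ∀ x, f x ≤ f 0 := fun x => uf x 0 (by simp)
  have gle : ∀ x, g x ≤ g 0 := fun x => ug x 0 (by simp)
  rcases (f0 0).eq_or_lt with hF0 | hF
  · have hz : ∀ x, f x = 0 := fun x => le_antisymm ((fle x).trans hF0.symm.le) (f0 x)
    simp [hz, ENNReal.zero_rpow_of_pos hs]
  rcases (g0 0).eq_or_lt with hG0 | hG
  · have hz : ∀ x, g x = 0 := fun x => le_antisymm ((gle x).trans hG0.symm.le) (g0 x)
    simp [hz, ENNReal.zero_rpow_of_pos ht]
  set F := f 0 with hFdef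
  set G := g 0 with hGdef
  have hFs : 0 < F ^ s := Real.rpow_pos_of_pos hF s
  have hGt : 0 < G ^ t := Real.rpow_pos_of_pos hG t
  have hc : 0 < F ^ s * G ^ t := mul_pos hFs hGt
  have key := pl_one_norm (fun x => f x / F) (fun x => g x / G) (fun x => h x / (F ^ s * G ^ t))
    (hf.div_const _) (hg.div_const _) (hh.div_const _)
    (fun x => div_nonneg (f0 x) hF.le) (fun x => div_nonneg (g0 x) hG.le)
    (fun x => div_nonneg (h0 x) hc.le)
    (fun x y hxy => div_le_div_of_nonneg_right (uf x y hxy) hF.le)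
    (fun x y hxy => div_le_div_of_nonneg_right (ug x y hxy) hG.le)
    (div_self hF.ne') (div_self hG.ne') s t hs ht hst
    (fun x y => by
      rw [Real.div_rpow (f0 x) hF.le, Real.div_rpow (g0 y) hG.le, div_mul_div_comm]
      exact div_le_div_of_nonneg_right (H x y) hc.le)
  set A' := ∫⁻ x, ENNReal.ofReal (f x / F) with hA'
  set B' := ∫⁻ x, ENNReal.ofReal (g x / G) with hB'
  set C' := ∫⁻ x, ENNReal.ofReal (h x / (F ^ s * G ^ t)) with hC'
  have eA : (∫⁻ x, ENNReal.ofReal (f x)) = ENNReal.ofReal F * A' := by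
    rw [hA', ← lintegral_const_mul' _ _ ENNReal.ofReal_ne_top]
    refine lintegral_congr (fun x => ?_)
    rw [← ENNReal.ofReal_mul hF.le, mul_div_cancel₀ _ hF.ne']
  have eB : (∫⁻ x, ENNReal.ofReal (g x)) = ENNReal.ofReal G * B' := by
    rw [hB', ← lintegral_const_mul' _ _ ENNReal.ofReal_ne_top]
    refine lintegral_congr (fun x => ?_)
    rw [← ENNReal.ofReal_mul hG.le, mul_div_cancel₀ _ hG.ne']
  have eC : (∫⁻ x, ENNReal.ofReal (h x)) = ENNReal.ofReal (F ^ s * G ^ t) * C' := by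
    rw [hC', ← lintegral_const_mul' _ _ ENNReal.ofReal_ne_top]
    refine lintegral_congr (fun x => ?_)
    rw [← ENNReal.ofReal_mul hc.le, mul_div_cancel₀ _ hc.ne']
  have amgm : A' ^ s * B' ^ t ≤ C' := (amgm_ennreal A' B' s t hs ht hst).trans key
  rw [eA, eB, eC, ENNReal.mul_rpow_of_nonneg _ _ hs.le, ENNReal.mul_rpow_of_nonneg _ _ ht.le,
    ENNReal.ofReal_rpow_of_pos hF, ENNReal.ofReal_rpow_of_pos hG, ENNReal.ofReal_mul hFs.le]
  calc ENNReal.ofReal (F ^ s) * A' ^ s * (ENNReal.ofReal (G ^ t) * B' ^ t)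
      = ENNReal.ofReal (F ^ s) * ENNReal.ofReal (G ^ t) * (A' ^ s * B' ^ t) := by ring
    _ ≤ ENNReal.ofReal (F ^ s) * ENNReal.ofReal (G ^ t) * C' := by gcongr

end Vale.Agent.Lib.P254.Orl
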