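import Vale.Agent.Lib.P254.Orl.BMAdd

/-! M6. Brunn's theorem for the coordinate sections of a convex solid set.
ROUTE: sections of a solid set are solid; `sec i t K ⊆ sec i s K` for `|s| ≤ |t|`
(change only the coordinate `i`: `Fin.insertNth_apply_same`, `Fin.insertNth_apply_succAbove`,
case split with `Fin.succAboveCases` / `Fin.forall_iff_succAbove`);
`a • insertNth i s x + b • insertNth i t y = insertNth i (a s + b t) (a • x + b • y)` and convexity of
`K` give the inclusion needed in `bm_add`. -/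

namespace Vale.Agent.Lib.P254.Orl

open MeasureTheory Set

variable {m : ℕ}

theorem solid_sec (i : Fin (m + 1)) (t : ℝ) {K : Set (Fin (m + 1) → ℝ)} (sK : Solid K) :
    Solid (sec i t K) := by
  intro x hx y hy
  refine sK _ hx _ ?_
  intro j
  rcases Fin.eq_self_or_eq_succAbove i j with rfl | ⟨k, rfl⟩
  · simp
  · simpa using hy k

theorem sec_subset_sec (i : Fin (m + 1)) {K : Set (Fin (m + 1) → ℝ)} (sK : Solid K)
    {s t : ℝ} (h : |s| ≤ |t|) : sec i t K ⊆ sec i s K := by
  intro y hy
  refine sK _ hy _ ?_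
  intro j
  rcases Fin.eq_self_or_eq_succAbove i j with rfl | ⟨k, rfl⟩
  · simpa using h
  · simp

theorem secVol_le_secVol (i : Fin (m + 1)) {K : Set (Fin (m + 1) → ℝ)} (sK : Solid K)
    (bK : Bornology.IsBounded K) {s t : ℝ} (h : |s| ≤ |t|) : secVol i K t ≤ secVol i K s := by
  unfold secVol vol
  exact ENNReal.toReal_mono (isBounded_sec i s bK).measure_lt_top.ne
    (measure_mono (sec_subset_sec i sK h))

theorem secVol_neg (i : Fin (m + 1)) {K : Set (Fin (m + 1) → ℝ)} (sK : Solid K) (t : ℝ) :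
    secVol i K (-t) = secVol i K t := by
  have h : sec i (-t) K = sec i t K :=
    Set.Subset.antisymm (sec_subset_sec i sK (by rw [abs_neg])) (sec_subset_sec i sK (by rw [abs_neg]))
  unfold secVol
  rw [h]

theorem secVol_eq_zero (i : Fin (m + 1)) {K : Set (Fin (m + 1) → ℝ)} {t : ℝ}
    (h : ¬ (sec i t K).Nonempty) : secVol i K t = 0 := by
  rw [Set.not_nonempty_iff_eq_empty] at h
  unfold secVol vol
  rw [h]
  simp

theorem concaveOn_secVol (hm : 0 < m) (i : Fin (m + 1)) {K : Set (Fin (m + 1) → ℝ)}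
    (cK : Convex ℝ K) (sK : Solid K) (mK : MeasurableSet K) (bK : Bornology.IsBounded K) :
    ConcaveOn ℝ {t | (sec i t K).Nonempty} (fun t => secVol i K t ^ (1 / (m : ℝ))) := by
  have key : ∀ (a b s t : ℝ) (x y : Fin m → ℝ),
      a • (Fin.insertNth i s x : Fin (m + 1) → ℝ) + b • (Fin.insertNth i t y : Fin (m + 1) → ℝ)
        = Fin.insertNth i (a * s + b * t) (a • x + b • y) := by
    intro a b s t x y
    funext j
    rcases Fin.eq_self_or_eq_succAbove i j with rfl | ⟨k, rfl⟩
    · simp
    · simp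
  have hin : ∀ (a b s t : ℝ), 0 ≤ a → 0 ≤ b → a + b = 1 → ∀ x ∈ sec i s K, ∀ y ∈ sec i t K,
      a • x + b • y ∈ sec i (a * s + b * t) K := by
    intro a b s t ha hb hab x hx y hy
    show (Fin.insertNth i (a * s + b * t) (a • x + b • y) : Fin (m + 1) → ℝ) ∈ K
    rw [← key]
    exact cK hx hy ha hb hab
  refine ⟨?_, ?_⟩
  · intro s hs t ht a b ha hb hab
    obtain ⟨x, hx⟩ := hs
    obtain ⟨y, hy⟩ := ht
    exact ⟨a • x + b • y, by simpa using hin a b s t ha hb hab x hx y hy⟩
  · intro s hs t ht a b ha hb hab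
    have := bm_add m hm (sec i s K) (sec i t K) (sec i (a * s + b * t) K)
      (measurableSet_sec i s mK) (measurableSet_sec i t mK) (measurableSet_sec i _ mK)
      (solid_sec i s sK) (solid_sec i t sK) hs ht (isBounded_sec i s bK) (isBounded_sec i t bK)
      (isBounded_sec i _ bK) a b ha hb hab (hin a b s t ha hb hab)
    simpa [secVol] using this

end Vale.Agent.Lib.P254.Orl
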