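import Vale.Agent.Lib.P254.Orl.Defs

/-! M1. One-dimensional Brunn-Minkowski for symmetric intervals.
ROUTE: for `x ∈ I`, `y ∈ J` put `r = s|x| + t|y|`; every `z` with `|z| ≤ r` is
`s (θ|x|) + t (θ|y|)` with `θ = z / r ∈ [-1,1]`, so `Icc (-r) r ⊆ C` and `volume C ≥ 2 r`.
On the other hand `I ⊆ Icc (-α) α` whenever `α` bounds `|x|` on `I`; so
`volume I = 2 sup |x|` (in `ℝ≥0∞`; unbounded case: `volume C = ∞`).  One convenient way:
`volume I ≤ ⨆ x ∈ I, ofReal (2|x|)` (if `I` is bounded use `sSup`, approximate), then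
`ENNReal.mul_iSup`, `ENNReal.iSup_add_iSup`‑type manipulations, or argue by `le_of_forall_lt`. -/

namespace Vale.Agent.Lib.P254.Orl

open MeasureTheory Set

private theorem solid_aux (I : Set ℝ) (s : ℝ) (hs : 0 < s) :
    ENNReal.ofReal s * volume I ≤ ⨆ x, ⨆ _ : x ∈ I, ENNReal.ofReal (2 * s * |x|) := by
  set A := ⨆ x, ⨆ _ : x ∈ I, ENNReal.ofReal (2 * s * |x|) with hA
  by_cases hAtop : A = ⊤
  · rw [hAtop]; exact le_top
  have hle : ∀ x ∈ I, ENNReal.ofReal (2 * s * |x|) ≤ A := fun x hx =>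
    le_iSup₂ (f := fun x (_ : x ∈ I) => ENNReal.ofReal (2 * s * |x|)) x hx
  have hsub : I ⊆ Icc (-(A.toReal / (2 * s))) (A.toReal / (2 * s)) := by
    intro x hx
    have h1 := (ENNReal.ofReal_le_iff_le_toReal hAtop).1 (hle x hx)
    have h2 : |x| ≤ A.toReal / (2 * s) := by
      rw [le_div_iff₀ (by positivity)]
      linarith
    exact abs_le.1 h2
  calc ENNReal.ofReal s * volume I
      ≤ ENNReal.ofReal s * volume (Icc (-(A.toReal / (2 * s))) (A.toReal / (2 * s))) := by
        gcongr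
    _ = ENNReal.ofReal s * ENNReal.ofReal (A.toReal / s) := by
        rw [Real.volume_Icc]
        congr 2
        field_simp
        ring
    _ = ENNReal.ofReal (A.toReal) := by
        rw [← ENNReal.ofReal_mul hs.le]
        congr 1
        field_simp
    _ = A := ENNReal.ofReal_toReal hAtop

theorem solid_real (I J C : Set ℝ)
    (hI : ∀ x ∈ I, ∀ y : ℝ, |y| ≤ |x| → y ∈ I) (hJ : ∀ x ∈ J, ∀ y : ℝ, |y| ≤ |x| → y ∈ J)
    (hI0 : I.Nonempty) (hJ0 : J.Nonempty) (s t : ℝ) (hs : 0 < s) (ht : 0 < t)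
    (h : ∀ x ∈ I, ∀ y ∈ J, s * x + t * y ∈ C) :
    ENNReal.ofReal s * volume I + ENNReal.ofReal t * volume J ≤ volume C := by
  refine le_trans (add_le_add (solid_aux I s hs) (solid_aux J t ht)) ?_
  refine ENNReal.biSup_add_biSup_le' hI0 hJ0 ?_
  intro x hx y hy
  set r : ℝ := s * |x| + t * |y| with hr
  have hr0 : 0 ≤ r := by positivity
  have hsub : Icc (-r) r ⊆ C := by
    intro z hz
    have hz' : |z| ≤ r := abs_le.2 hz
    rcases hr0.eq_or_lt with h0 | h0
    · have hz0 : z = 0 := by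
        rw [← h0] at hz'
        exact abs_eq_zero.1 (le_antisymm hz' (abs_nonneg z))
      have := h 0 (hI x hx 0 (by simp)) 0 (hJ y hy 0 (by simp))
      simpa [hz0] using this
    · have hθ : |z / r| ≤ 1 := by
        rw [abs_div, abs_of_pos h0, div_le_one h0]
        exact hz'
      have h1 : z / r * |x| ∈ I := hI x hx _ (by
        rw [abs_mul, abs_abs]
        exact mul_le_of_le_one_left (abs_nonneg x) hθ)
      have h2 : z / r * |y| ∈ J := hJ y hy _ (by
        rw [abs_mul, abs_abs]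
        exact mul_le_of_le_one_left (abs_nonneg y) hθ)
      have h3 := h _ h1 _ h2
      have h4 : s * (z / r * |x|) + t * (z / r * |y|) = z := by
        have : s * (z / r * |x|) + t * (z / r * |y|) = z / r * r := by rw [hr]; ring
        rw [this]
        field_simp
      rwa [h4] at h3
  calc ENNReal.ofReal (2 * s * |x|) + ENNReal.ofReal (2 * t * |y|)
      = ENNReal.ofReal (r - -r) := by
        rw [← ENNReal.ofReal_add (by positivity) (by positivity)]
        congr 1
        rw [hr]; ring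
    _ = volume (Icc (-r) r) := by rw [Real.volume_Icc]
    _ ≤ volume C := measure_mono hsub

end Vale.Agent.Lib.P254.Orl
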